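import Mathlib

/-!
Discrete Sperner lemma on the triangular grid, and its consequence for colourings
of the grid whose monochromatic components are small.
-/

namespace Vale.Agent.Lib.P032

/-- Mod 2 indicator of an edge of type `{0,1}`. -/
def edgeType (a b : Fin 3) : ZMod 2 :=
  if (a = 0 ∧ b = 1) ∨ (a = 1 ∧ b = 0) then 1 else 0

/-- The value on the long side. -/
def sideVal (a : Fin 3) : ZMod 2 := if a = 1 then 1 else 0

/-- Three pairwise different labels. -/
def Rainbow (a b c : Fin 3) : Prop := a ≠ b ∧ b ≠ c ∧ a ≠ c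

lemma edge_triangle (a b c : Fin 3) (h : ¬ Rainbow a b c) :
    edgeType a b + edgeType a c + edgeType b c = 0 := by
  revert a b c
  unfold Rainbow edgeType
  decide

lemma edge_self_side (a b : Fin 3) (ha : a ≠ 2) (hb : b ≠ 2) :
    edgeType a b = sideVal a + sideVal b := by
  revert a b
  unfold edgeType sideVal
  decide

lemma edge_zero_left (a b : Fin 3) (ha : a ≠ 0) (hb : b ≠ 0) : edgeType a b = 0 := by
  revert a b
  unfold edgeType
  decide

lemma edge_zero_bottom (a b : Fin 3) (ha : a ≠ 1) (hb : b ≠ 1) : edgeType a b = 0 := by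
  revert a b
  unfold edgeType
  decide

lemma z2_step1 (a b c d e f g h : ZMod 2) (h1 : a + b = c + d)
    (h2 : e + d + g = 0) (h3 : g + h + f = 0) :
    (a + e) + (b + f) = c + h := by
  revert a b c d e f g h
  decide

lemma z2_step2 (a b c d e f : ZMod 2) (h1 : a + b = c + d) (h2 : e + d + f = 0) (h3 : c = 0) :
    (a + e) + b = f := by
  revert a b c d e f
  decide

/-- The discrete Sperner lemma on the triangular grid. -/
theorem sperner (n : ℕ) (lab : ℕ → ℕ → Fin 3)
    (h0 : ∀ j, j ≤ n → lab 0 j ≠ 0)
    (h1 : ∀ i, i ≤ n → lab i 0 ≠ 1)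
    (h2 : ∀ i j, i + j = n → lab i j ≠ 2) :
    ∃ i j, (i + j < n ∧ Rainbow (lab i j) (lab (i + 1) j) (lab i (j + 1))) ∨
      (i + j + 1 < n ∧ Rainbow (lab (i + 1) j) (lab i (j + 1)) (lab (i + 1) (j + 1))) := by
  by_contra hcon
  push Not at hcon
  have hup : ∀ i j, i + j < n → ¬ Rainbow (lab i j) (lab (i + 1) j) (lab i (j + 1)) :=
    fun i j hij => (hcon i j).1 hij
  have hdown : ∀ i j, i + j + 1 < n →
      ¬ Rainbow (lab (i + 1) j) (lab i (j + 1)) (lab (i + 1) (j + 1)) :=
    fun i j hij => (hcon i j).2 hij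
  -- horizontal, vertical and diagonal edges
  let H : ℕ → ℕ → ZMod 2 := fun i j => edgeType (lab i j) (lab (i + 1) j)
  let W : ℕ → ℕ → ZMod 2 := fun i j => edgeType (lab i j) (lab i (j + 1))
  let D : ℕ → ℕ → ZMod 2 := fun i j => edgeType (lab (i + 1) j) (lab i (j + 1))
  have hU : ∀ i j, i + j < n → H i j + W i j + D i j = 0 := fun i j hij =>
    edge_triangle _ _ _ (hup i j hij)
  have hDn : ∀ i j, i + j + 1 < n → D i j + W (i + 1) j + H i (j + 1) = 0 := fun i j hij =>
    edge_triangle _ _ _ (hdown i j hij)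
  -- inner induction along a row
  have inner : ∀ j m, m + j + 1 ≤ n →
      (∑ i ∈ Finset.range m, H i j) + (∑ i ∈ Finset.range m, H i (j + 1)) = W 0 j + W m j := by
    intro j m
    induction m with
    | zero =>
      intro _
      simp only [Finset.range_zero, Finset.sum_empty, add_zero]
      exact (CharTwo.add_self_eq_zero _).symm
    | succ m ih =>
      intro hm
      have ih' := ih (by omega)
      have e1 := hU m j (by omega)
      have e2 := hDn m j (by omega)
      rw [Finset.sum_range_succ, Finset.sum_range_succ]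
      exact z2_step1 _ _ _ _ _ _ _ _ ih' e1 e2
  let P : ℕ → ZMod 2 := fun k => ∑ i ∈ Finset.range (n - k), H i k
  have row : ∀ k, k + 1 ≤ n → P k + P (k + 1) = D (n - k - 1) k := by
    intro k hk
    have hnk : n - k = (n - k - 1) + 1 := by omega
    have hnk' : n - (k + 1) = n - k - 1 := by omega
    have e0 := inner k (n - k - 1) (by omega)
    have e1 := hU (n - k - 1) k (by omega)
    have hW0 : W 0 k = 0 := edge_zero_left _ _ (h0 k (by omega)) (h0 (k + 1) (by omega))
    show (∑ i ∈ Finset.range (n - k), H i k) + (∑ i ∈ Finset.range (n - (k + 1)), H i (k + 1)) = _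
    rw [hnk', hnk, Finset.sum_range_succ]
    rw [Nat.add_sub_cancel]
    exact z2_step2 _ _ _ _ _ _ e0 e1 hW0
  have hside : ∀ k, k ≤ n → P 0 + P k = sideVal (lab n 0) + sideVal (lab (n - k) k) := by
    intro k
    induction k with
    | zero =>
      intro _
      simp only [Nat.sub_zero]
      rw [CharTwo.add_self_eq_zero, CharTwo.add_self_eq_zero]
    | succ k ih =>
      intro hk
      have ih' := ih (by omega)
      have e1 := row k hk
      have hD : D (n - k - 1) k = sideVal (lab (n - k) k) + sideVal (lab (n - (k + 1)) (k + 1)) := by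
        have a1 : n - k - 1 + 1 = n - k := by omega
        have a2 : n - k - 1 = n - (k + 1) := by omega
        show edgeType (lab (n - k - 1 + 1) k) (lab (n - k - 1) (k + 1)) = _
        rw [a1, a2]
        exact edge_self_side _ _ (h2 _ _ (by omega)) (h2 _ _ (by omega))
      rw [hD] at e1
      have : ∀ a b c d e f : ZMod 2, a + b = c + d → b + e = d + f → a + e = c + f := by decide
      exact this _ _ _ _ _ _ ih' e1
  have hfin := hside n le_rfl
  have hP0 : P 0 = 0 := by
    show (∑ i ∈ Finset.range (n - 0), H i 0) = 0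
    apply Finset.sum_eq_zero
    intro i hi
    have hi' : i < n := by simpa using hi
    exact edge_zero_bottom _ _ (h1 i (by omega)) (h1 (i + 1) (by omega))
  have hPn : P n = 0 := by
    show (∑ i ∈ Finset.range (n - n), H i n) = 0
    simp
  have hc1 : lab n 0 = 0 := by
    have a1 := h1 n le_rfl
    have a2 := h2 n 0 (by omega)
    revert a1 a2
    generalize lab n 0 = a
    revert a
    decide
  have hc2 : lab 0 n = 1 := by
    have a1 := h0 n le_rfl
    have a2 := h2 0 n (by omega)
    revert a1 a2
    generalize lab 0 n = a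
    revert a
    decide
  rw [hP0, hPn, Nat.sub_self, hc1, hc2] at hfin
  revert hfin
  decide

section grid

variable {κ : Type*}

/-- Neighbouring vertices of the triangular grid. -/
def GridAdj (v w : ℕ × ℕ) : Prop :=
  (w = (v.1 + 1, v.2)) ∨ (v = (w.1 + 1, w.2)) ∨
  (w = (v.1, v.2 + 1)) ∨ (v = (w.1, w.2 + 1)) ∨
  (v.1 = w.1 + 1 ∧ w.2 = v.2 + 1) ∨ (w.1 = v.1 + 1 ∧ v.2 = w.2 + 1)

/-- One monochromatic step inside the grid of size `n`. -/
def MonoStep (n : ℕ) (c : ℕ × ℕ → κ) (v w : ℕ × ℕ) : Prop :=
  v.1 + v.2 ≤ n ∧ w.1 + w.2 ≤ n ∧ GridAdj v w ∧ c v = c w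

/-- Monochromatic connection inside the grid. -/
def MonoConn (n : ℕ) (c : ℕ × ℕ → κ) (v w : ℕ × ℕ) : Prop :=
  Relation.ReflTransGen (MonoStep n c) v w

lemma monoStep_symm {n : ℕ} {c : ℕ × ℕ → κ} {v w : ℕ × ℕ} (h : MonoStep n c v w) :
    MonoStep n c w v := by
  obtain ⟨h1, h2, h3, h4⟩ := h
  refine ⟨h2, h1, ?_, h4.symm⟩
  unfold GridAdj at *
  tauto

lemma monoConn_symm {n : ℕ} {c : ℕ × ℕ → κ} {v w : ℕ × ℕ} (h : MonoConn n c v w) :
    MonoConn n c w v := by
  induction h with
  | refl => exact Relation.ReflTransGen.refl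
  | tail _ hs ih =>
    exact Relation.ReflTransGen.head (monoStep_symm hs) ih

lemma monoConn_trans {n : ℕ} {c : ℕ × ℕ → κ} {u v w : ℕ × ℕ} (h : MonoConn n c u v)
    (h' : MonoConn n c v w) : MonoConn n c u w :=
  Relation.ReflTransGen.trans h h'

/-- Colouring the grid so that no monochromatic component touches all three sides forces a
small triangle with three different colours. -/
theorem tricolour (n : ℕ) (c : ℕ × ℕ → κ)
    (hsmall : ∀ a b d : ℕ × ℕ, a.1 = 0 → a.2 ≤ n → b.2 = 0 → b.1 ≤ n → d.1 + d.2 = n →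
      MonoConn n c a b → MonoConn n c a d → False) :
    ∃ v w x : ℕ × ℕ, v.1 + v.2 ≤ n ∧ w.1 + w.2 ≤ n ∧ x.1 + x.2 ≤ n ∧
      GridAdj v w ∧ GridAdj v x ∧ c v ≠ c w ∧ c v ≠ c x ∧ c w ≠ c x := by
  classical
  let lab : ℕ → ℕ → Fin 3 := fun i j =>
    if ∃ a : ℕ × ℕ, a.1 = 0 ∧ a.2 ≤ n ∧ MonoConn n c (i, j) a then
      (if ∃ b : ℕ × ℕ, b.2 = 0 ∧ b.1 ≤ n ∧ MonoConn n c (i, j) b then 2 else 1)
    else 0
  have hlab : ∀ i j i' j', MonoConn n c (i, j) (i', j') → lab i j = lab i' j' := by
    intro i j i' j' hconn
    have key1 : ∀ (P : ℕ × ℕ → Prop), (∃ a, P a ∧ MonoConn n c (i, j) a) ↔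
        (∃ a, P a ∧ MonoConn n c (i', j') a) := by
      intro P
      constructor
      · rintro ⟨a, ha, hc⟩
        exact ⟨a, ha, monoConn_trans (monoConn_symm hconn) hc⟩
      · rintro ⟨a, ha, hc⟩
        exact ⟨a, ha, monoConn_trans hconn hc⟩
    have k1 := key1 (fun a => a.1 = 0 ∧ a.2 ≤ n)
    have k2 := key1 (fun a => a.2 = 0 ∧ a.1 ≤ n)
    simp only [and_assoc] at k1 k2
    simp only [lab, k1, k2]
  have hs := sperner n lab ?_ ?_ ?_
  · obtain ⟨i, j, h | h⟩ := hs
    · obtain ⟨hij, h1, h2, h3⟩ := h
      refine ⟨(i, j), (i + 1, j), (i, j + 1), by simpa using hij.le, ?_, ?_, ?_, ?_, ?_, ?_, ?_⟩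
      · simp only; omega
      · simp only; omega
      · left; rfl
      · right; right; left; rfl
      · intro e
        apply h1
        apply hlab
        refine Relation.ReflTransGen.single ⟨?_, ?_, ?_, e⟩
        · simp only; omega
        · simp only; omega
        · left; rfl
      · intro e
        apply h3
        apply hlab
        refine Relation.ReflTransGen.single ⟨?_, ?_, ?_, e⟩
        · simp only; omega
        · simp only; omega
        · right; right; left; rfl
      · intro e
        apply h2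
        apply hlab
        refine Relation.ReflTransGen.single ⟨?_, ?_, ?_, e⟩
        · simp only; omega
        · simp only; omega
        · right; right; right; right; left; exact ⟨rfl, rfl⟩
    · obtain ⟨hij, h1, h2, h3⟩ := h
      refine ⟨(i + 1, j), (i, j + 1), (i + 1, j + 1), ?_, ?_, ?_, ?_, ?_, ?_, ?_, ?_⟩
      · simp only; omega
      · simp only; omega
      · simp only; omega
      · right; right; right; right; left; exact ⟨rfl, rfl⟩
      · right; right; left; rfl
      · intro e
        apply h1
        apply hlab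
        refine Relation.ReflTransGen.single ⟨?_, ?_, ?_, e⟩
        · simp only; omega
        · simp only; omega
        · right; right; right; right; left; exact ⟨rfl, rfl⟩
      · intro e
        apply h3
        apply hlab
        refine Relation.ReflTransGen.single ⟨?_, ?_, ?_, e⟩
        · simp only; omega
        · simp only; omega
        · right; right; left; rfl
      · intro e
        apply h2
        apply hlab
        refine Relation.ReflTransGen.single ⟨?_, ?_, ?_, e⟩
        · simp only; omega
        · simp only; omega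
        · left; rfl
  · intro j hj e
    simp only [lab] at e
    split_ifs at e with h1 h2
    · exact absurd e (by decide)
    · exact absurd e (by decide)
    · exact h1 ⟨(0, j), rfl, hj, Relation.ReflTransGen.refl⟩
  · intro i hi e
    simp only [lab] at e
    split_ifs at e with h1 h2
    · exact absurd e (by decide)
    · exact h2 ⟨(i, 0), rfl, hi, Relation.ReflTransGen.refl⟩
    · exact absurd e (by decide)
  · intro i j hij e
    simp only [lab] at e
    split_ifs at e with h1 h2
    · obtain ⟨a, ha1, ha2, hca⟩ := h1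
      obtain ⟨b, hb1, hb2, hcb⟩ := h2
      exact hsmall a b (i, j) ha1 ha2 hb1 hb2 hij
        (monoConn_trans (monoConn_symm hca) hcb) (monoConn_symm hca)
    · exact absurd e (by decide)
    · exact absurd e (by decide)

end grid

end Vale.Agent.Lib.P032
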