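import Mathlib
import Vale.Agent.Lib.P032.Sperner

/-!
A topological triple point lemma for closed covers of the plane whose pieces contain no
unit pair with one point in a dense subset.
-/

open Metric Set Topology

namespace Vale.Agent.Lib.P032

/-- Grid position with mesh `h`. -/
noncomputable def gridPos (h : ℝ) (v : ℕ × ℕ) : ℂ := ⟨v.1 * h, v.2 * h⟩

lemma gridPos_re (h : ℝ) (v : ℕ × ℕ) : (gridPos h v).re = v.1 * h := rfl

lemma gridPos_im (h : ℝ) (v : ℕ × ℕ) : (gridPos h v).im = v.2 * h := rfl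

lemma gridPos_adj {h : ℝ} (hh : 0 ≤ h) {v w : ℕ × ℕ} (hvw : GridAdj v w) :
    ‖gridPos h v - gridPos h w‖ ≤ 2 * h := by
  refine (Complex.norm_le_abs_re_add_abs_im _).trans ?_
  simp only [Complex.sub_re, Complex.sub_im, gridPos_re, gridPos_im]
  rcases hvw with e | e | e | e | ⟨e1, e2⟩ | ⟨e1, e2⟩
  · subst e
    push_cast
    have h1 : (v.1 : ℝ) * h - (v.1 + 1) * h = -h := by ring
    have h2 : (v.2 : ℝ) * h - v.2 * h = 0 := by ring
    rw [h1, h2, abs_neg, abs_of_nonneg hh, abs_zero]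
    linarith
  · subst e
    push_cast
    have h1 : ((w.1 : ℝ) + 1) * h - w.1 * h = h := by ring
    have h2 : (w.2 : ℝ) * h - w.2 * h = 0 := by ring
    rw [h1, h2, abs_of_nonneg hh, abs_zero]
    linarith
  · subst e
    push_cast
    have h1 : (v.1 : ℝ) * h - v.1 * h = 0 := by ring
    have h2 : (v.2 : ℝ) * h - (v.2 + 1) * h = -h := by ring
    rw [h1, h2, abs_neg, abs_of_nonneg hh, abs_zero]
    linarith
  · subst e
    push_cast
    have h1 : (w.1 : ℝ) * h - w.1 * h = 0 := by ring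
    have h2 : ((w.2 : ℝ) + 1) * h - w.2 * h = h := by ring
    rw [h1, h2, abs_of_nonneg hh, abs_zero]
    linarith
  · rw [e1, e2]
    push_cast
    have h1 : ((w.1 : ℝ) + 1) * h - w.1 * h = h := by ring
    have h2 : (v.2 : ℝ) * h - (v.2 + 1) * h = -h := by ring
    rw [h1, h2, abs_neg, abs_of_nonneg hh]
    linarith
  · rw [e1, e2]
    push_cast
    have h1 : (v.1 : ℝ) * h - (v.1 + 1) * h = -h := by ring
    have h2 : ((w.2 : ℝ) + 1) * h - w.2 * h = h := by ring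
    rw [h1, h2, abs_neg, abs_of_nonneg hh]
    linarith

/-- A uniform positive lower bound over a finite index type. -/
lemma finite_min_pos {α : Type*} [Finite α] (ε : α → ℝ) (h : ∀ a, 0 < ε a) :
    ∃ δ > 0, ∀ a, δ ≤ ε a := by
  rcases isEmpty_or_nonempty α with he | hne
  · exact ⟨1, one_pos, fun a => (he.false a).elim⟩
  · obtain ⟨a₀, ha₀⟩ := Finite.exists_min ε
    exact ⟨ε a₀, h a₀, ha₀⟩

/-- A uniform positive lower bound over a finite set. -/
lemma finset_min_pos {α : Type*} (s : Finset α) (ε : α → ℝ) (h : ∀ a ∈ s, 0 < ε a) :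
    ∃ δ > 0, ∀ a ∈ s, δ ≤ ε a := by
  classical
  induction s using Finset.induction_on with
  | empty => exact ⟨1, one_pos, by simp⟩
  | insert a s _ ih =>
    obtain ⟨δ, hδ, hδs⟩ := ih (fun b hb => h b (Finset.mem_insert_of_mem hb))
    refine ⟨min δ (ε a), lt_min hδ (h a (Finset.mem_insert_self a s)), ?_⟩
    intro b hb
    rcases Finset.mem_insert.1 hb with rfl | hb
    · exact min_le_right _ _
    · exact (min_le_left _ _).trans (hδs b hb)

/-- Step 1: net of witnesses for one closed piece. -/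
lemma net_of_piece (K U : Set ℂ) (hK : IsCompact K) (hKU : K ⊆ closure U)
    (hP : ∀ t ∈ U, ∀ y ∈ K, ‖t - y‖ ≠ 1) :
    ∃ κ > 0, ∀ y ∈ K, ∃ t ∈ U, ‖t - y‖ < 1 / 2 ∧ ∀ y' ∈ K, κ ≤ |‖t - y'‖ - 1| := by
  classical
  have hwit : ∀ y ∈ K, ∃ t ∈ U, ‖t - y‖ < 1 / 2 := by
    intro y hy
    have := Metric.mem_closure_iff.1 (hKU hy) (1 / 2) (by norm_num)
    obtain ⟨t, ht, hd⟩ := this
    refine ⟨t, ht, ?_⟩
    rw [dist_comm, dist_eq_norm] at hd
    exact hd
  choose! τ hτU hτd using hwit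
  obtain ⟨T, hTK, hTcov⟩ := hK.elim_nhds_subcover (fun y => ball (τ y) (1 / 2)) (by
    intro y hy
    apply IsOpen.mem_nhds isOpen_ball
    rw [mem_ball, dist_eq_norm, norm_sub_rev]
    exact hτd y hy)
  have hlow : ∀ y ∈ T, ∃ κ > 0, ∀ y' ∈ K, κ ≤ |‖τ y - y'‖ - 1| := by
    intro y hy
    by_cases hne : K.Nonempty
    · have hcont : ContinuousOn (fun y' : ℂ => |‖τ y - y'‖ - 1|) K := by fun_prop
      obtain ⟨y₀, hy₀, hmin⟩ := hK.exists_isMinOn hne hcont
      exact ⟨|‖τ y - y₀‖ - 1|, abs_pos.2 (sub_ne_zero.2 (hP _ (hτU y (hTK y hy)) y₀ hy₀)),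
        fun y' hy' => hmin hy'⟩
    · refine ⟨1, one_pos, fun y' hy' => (hne ⟨y', hy'⟩).elim⟩
  choose! κf hκf hκb using hlow
  obtain ⟨κ, hκ, hκle⟩ := finset_min_pos T κf hκf
  refine ⟨κ, hκ, ?_⟩
  intro y hy
  have := hTcov hy
  simp only [mem_iUnion, mem_ball, exists_prop] at this
  obtain ⟨y₁, hy₁, hd⟩ := this
  refine ⟨τ y₁, hτU y₁ (hTK y₁ hy₁), ?_, ?_⟩
  · rw [dist_eq_norm, norm_sub_rev] at hd
    exact hd
  · intro y' hy'
    exact (hκle y₁ hy₁).trans (hκb y₁ hy₁ y' hy')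

/-- Step 2: separation of three compact sets with empty common intersection. -/
lemma three_sep (K₁ K₂ K₃ : Set ℂ) (h₁ : IsCompact K₁) (h₂ : IsCompact K₂) (h₃ : IsCompact K₃)
    (hno : ∀ p, p ∈ K₁ → p ∈ K₂ → p ∈ K₃ → False) :
    ∃ δ > 0, ∀ x ∈ K₁, ∀ y ∈ K₂, ∀ z ∈ K₃, δ ≤ ‖x - y‖ + ‖x - z‖ := by
  have hK : IsCompact (K₁ ×ˢ (K₂ ×ˢ K₃)) := h₁.prod (h₂.prod h₃)
  by_cases hne : (K₁ ×ˢ (K₂ ×ˢ K₃)).Nonempty
  · have hcont : ContinuousOn (fun q : ℂ × (ℂ × ℂ) => ‖q.1 - q.2.1‖ + ‖q.1 - q.2.2‖)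
        (K₁ ×ˢ (K₂ ×ˢ K₃)) := by fun_prop
    obtain ⟨q, hq, hmin⟩ := hK.exists_isMinOn hne hcont
    obtain ⟨hq1, hq2, hq3⟩ := hq
    refine ⟨‖q.1 - q.2.1‖ + ‖q.1 - q.2.2‖, ?_, ?_⟩
    · by_contra hle
      have a1 : ‖q.1 - q.2.1‖ = 0 := by
        have := norm_nonneg (q.1 - q.2.1)
        have := norm_nonneg (q.1 - q.2.2)
        linarith
      have a2 : ‖q.1 - q.2.2‖ = 0 := by
        have := norm_nonneg (q.1 - q.2.1)
        have := norm_nonneg (q.1 - q.2.2)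
        linarith
      have b1 : q.1 = q.2.1 := sub_eq_zero.1 (norm_eq_zero.1 a1)
      have b2 : q.1 = q.2.2 := sub_eq_zero.1 (norm_eq_zero.1 a2)
      exact hno q.1 hq1 (b1 ▸ hq2) (b2 ▸ hq3)
    · intro x hx y hy z hz
      exact hmin (show (x, (y, z)) ∈ K₁ ×ˢ (K₂ ×ˢ K₃) from ⟨hx, hy, hz⟩)
  · refine ⟨1, one_pos, ?_⟩
    intro x hx y hy z hz
    exact (hne ⟨(x, (y, z)), hx, hy, hz⟩).elim

/-- The triple point lemma. -/
theorem triple_point {ι : Type*} [Finite ι] (A U : ι → Set ℂ) (hAc : ∀ i, IsClosed (A i))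
    (hcover : ∀ z, ∃ i, z ∈ A i) (hUA : ∀ i, A i ⊆ closure (U i))
    (hP : ∀ i, ∀ t ∈ U i, ∀ y ∈ A i, ‖t - y‖ ≠ 1) :
    ∃ p i j k, i ≠ j ∧ j ≠ k ∧ i ≠ k ∧ p ∈ A i ∧ p ∈ A j ∧ p ∈ A k := by
  classical
  by_contra hno
  push Not at hno
  let Q : Set ℂ := closedBall 0 4
  have hQ : IsCompact Q := isCompact_closedBall 0 4
  let K : ι → Set ℂ := fun i => A i ∩ Q
  have hKc : ∀ i, IsCompact (K i) := fun i => hQ.inter_left (hAc i)
  -- uniform constants
  have h1 : ∀ i, ∃ κ > 0, ∀ y ∈ K i, ∃ t ∈ U i, ‖t - y‖ < 1 / 2 ∧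
      ∀ y' ∈ K i, κ ≤ |‖t - y'‖ - 1| := fun i =>
    net_of_piece (K i) (U i) (hKc i) (fun y hy => hUA i hy.1)
      (fun t ht y hy => hP i t ht y hy.1)
  choose κf hκf hκb using h1
  obtain ⟨κ, hκ, hκle⟩ := finite_min_pos κf hκf
  have h2 : ∀ a : ι × ι × ι, ∃ δ > 0, a.1 ≠ a.2.1 → a.2.1 ≠ a.2.2 → a.1 ≠ a.2.2 →
      ∀ x ∈ K a.1, ∀ y ∈ K a.2.1, ∀ z ∈ K a.2.2, δ ≤ ‖x - y‖ + ‖x - z‖ := by
    rintro ⟨i, j, k⟩
    by_cases hd : i ≠ j ∧ j ≠ k ∧ i ≠ k
    · obtain ⟨δ, hδ, hb⟩ := three_sep (K i) (K j) (K k) (hKc i) (hKc j) (hKc k)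
        (fun p hi hj hk => hno p i j k hd.1 hd.2.1 hd.2.2 hi.1 hj.1 hk.1)
      exact ⟨δ, hδ, fun _ _ _ => hb⟩
    · refine ⟨1, one_pos, fun a b c => (hd ⟨a, b, c⟩).elim⟩
  choose δf hδf hδb using h2
  obtain ⟨δ, hδ, hδle⟩ := finite_min_pos δf hδf
  -- the mesh
  obtain ⟨n, hn⟩ := exists_nat_gt (8 / min κ (δ / 2))
  have hmin : 0 < min κ (δ / 2) := lt_min hκ (by linarith)
  have hnpos : (0 : ℝ) < n := lt_trans (by positivity) hn
  let h : ℝ := 4 / n
  have hh : 0 < h := by positivity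
  have hnh : n * h = 4 := by
    simp only [h]
    field_simp
  have hh2 : 2 * h < min κ (δ / 2) := by
    have : 8 / (n : ℝ) < min κ (δ / 2) := by
      rw [div_lt_iff₀ hnpos]
      rw [div_lt_iff₀ hmin] at hn
      linarith
    have e : 2 * h = 8 / n := by
      simp only [h]
      ring
    rw [e]
    exact this
  have hhκ : 2 * h < κ := lt_of_lt_of_le hh2 (min_le_left _ _)
  have hhδ : 4 * h < δ := by
    have := lt_of_lt_of_le hh2 (min_le_right _ _)
    linarith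
  -- the colouring of the grid
  choose c hc using fun v : ℕ × ℕ => hcover (gridPos h v)
  have hpos : ∀ v : ℕ × ℕ, v.1 + v.2 ≤ n → gridPos h v ∈ K (c v) := by
    intro v hv
    refine ⟨hc v, ?_⟩
    rw [mem_closedBall, dist_zero_right]
    refine (Complex.norm_le_abs_re_add_abs_im _).trans ?_
    rw [gridPos_re, gridPos_im, abs_of_nonneg (by positivity), abs_of_nonneg (by positivity)]
    have hv' : ((v.1 : ℝ) + v.2) ≤ n := by exact_mod_cast hv
    calc (v.1 : ℝ) * h + v.2 * h = (v.1 + v.2) * h := by ring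
      _ ≤ n * h := by exact mul_le_mul_of_nonneg_right hv' hh.le
      _ = 4 := hnh
  -- components are small
  have hcomp : ∀ a : ℕ × ℕ, a.1 + a.2 ≤ n → ∃ t : ℂ, ∀ w, MonoConn n c a w →
      w.1 + w.2 ≤ n ∧ ‖t - gridPos h w‖ < 1 := by
    intro a ha
    obtain ⟨t, _, ht1, ht2⟩ := hκb (c a) (gridPos h a) (hpos a ha)
    refine ⟨t, ?_⟩
    intro w hw
    have aux : w.1 + w.2 ≤ n ∧ c w = c a ∧ ‖t - gridPos h w‖ < 1 := by
      induction hw with
      | refl => exact ⟨ha, rfl, by linarith⟩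
      | @tail w₁ w₂ _ hs ih =>
        obtain ⟨ih1, ih2, ih3⟩ := ih
        obtain ⟨s1, s2, s3, s4⟩ := hs
        refine ⟨s2, s4.symm.trans ih2, ?_⟩
        have hk := ht2 (gridPos h w₁) (by rw [← ih2]; exact hpos w₁ ih1)
        have hk' := (hκle (c a)).trans hk
        have hd := gridPos_adj hh.le s3
        have htri : ‖t - gridPos h w₂‖ ≤ ‖t - gridPos h w₁‖ + ‖gridPos h w₁ - gridPos h w₂‖ := by
          have : t - gridPos h w₂ = (t - gridPos h w₁) + (gridPos h w₁ - gridPos h w₂) := by ring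
          rw [this]
          exact norm_add_le _ _
        rw [abs_of_neg (by linarith)] at hk'
        linarith
    exact ⟨aux.1, aux.2.2⟩
  have hsmall : ∀ a b d : ℕ × ℕ, a.1 = 0 → a.2 ≤ n → b.2 = 0 → b.1 ≤ n → d.1 + d.2 = n →
      MonoConn n c a b → MonoConn n c a d → False := by
    intro a b d ha1 ha2 hb1 _ hd hab had
    obtain ⟨t, ht⟩ := hcomp a (by omega)
    have e1 := (ht a Relation.ReflTransGen.refl).2
    have e2 := (ht b hab).2
    have e3 := (ht d had).2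
    have f1 : (d.1 : ℝ) * h < 2 := by
      have : ‖gridPos h d - gridPos h a‖ < 2 := by
        have : gridPos h d - gridPos h a = (t - gridPos h a) - (t - gridPos h d) := by ring
        rw [this]
        exact lt_of_le_of_lt (norm_sub_le _ _) (by linarith)
      have h' := (Complex.abs_re_le_norm _).trans_lt this
      rw [Complex.sub_re, gridPos_re, gridPos_re, ha1] at h'
      have := (abs_lt.1 h').2
      simpa using this
    have f2 : (d.2 : ℝ) * h < 2 := by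
      have : ‖gridPos h d - gridPos h b‖ < 2 := by
        have : gridPos h d - gridPos h b = (t - gridPos h b) - (t - gridPos h d) := by ring
        rw [this]
        exact lt_of_le_of_lt (norm_sub_le _ _) (by linarith)
      have h' := (Complex.abs_im_le_norm _).trans_lt this
      rw [Complex.sub_im, gridPos_im, gridPos_im, hb1] at h'
      have := (abs_lt.1 h').2
      simpa using this
    have hd' : ((d.1 : ℝ) + d.2) = n := by exact_mod_cast hd
    have : ((d.1 : ℝ) + d.2) * h = 4 := by rw [hd']; exact hnh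
    nlinarith
  obtain ⟨v, w, x, hv, hw, hx, hvw, hvx, c1, c2, c3⟩ := tricolour n c hsmall
  have hb := hδb (c v, c w, c x) c1 c3 c2 (gridPos h v) (hpos v hv) (gridPos h w) (hpos w hw)
    (gridPos h x) (hpos x hx)
  have hle := hδle (c v, c w, c x)
  have d1 := gridPos_adj hh.le hvw
  have d2 := gridPos_adj hh.le hvx
  linarith

end Vale.Agent.Lib.P032
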