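import Mathlib
import Vale.Agent.Lib.P032.Triple

/-!
Closed covers of the plane by five regular closed sets without unit pairs between the interior
and the closure of a piece: two pieces must share a point together with an arc of the unit
circle around this point.
-/

open Metric Set Topology

namespace Vale.Agent.Lib.P032

/-- The point of the unit circle at angle `θ`. -/
noncomputable def u (θ : ℝ) : ℂ := Complex.exp (θ * Complex.I)

lemma u_re (θ : ℝ) : (u θ).re = Real.cos θ := Complex.exp_ofReal_mul_I_re θ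

lemma u_im (θ : ℝ) : (u θ).im = Real.sin θ := Complex.exp_ofReal_mul_I_im θ

lemma norm_u (θ : ℝ) : ‖u θ‖ = 1 := Complex.norm_exp_ofReal_mul_I θ

lemma continuous_u : Continuous u := by
  unfold u
  fun_prop

lemma u_shift (θ : ℝ) : u (θ + Real.pi / 3) + u (θ - Real.pi / 3) = u θ := by
  apply Complex.ext
  · simp only [Complex.add_re, u_re, Real.cos_add, Real.cos_sub, Real.cos_pi_div_three]
    ring
  · simp only [Complex.add_im, u_im, Real.sin_add, Real.sin_sub, Real.cos_pi_div_three]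
    ring

lemma sq_norm_eq (z : ℂ) : ‖z‖ ^ 2 = z.re ^ 2 + z.im ^ 2 := by
  rw [Complex.sq_norm, Complex.normSq_apply]
  ring

lemma norm_eq_one_of_sq {z : ℂ} (h : ‖z‖ ^ 2 = 1) : ‖z‖ = 1 := by
  have h0 := norm_nonneg z
  nlinarith

lemma half_le_sin_pi_div_three : 1 / 2 ≤ Real.sin (Real.pi / 3) := by
  rw [Real.sin_pi_div_three]
  have h1 : (1 : ℝ) ≤ √3 := by
    rw [show (1 : ℝ) = √1 by simp]
    exact Real.sqrt_le_sqrt (by norm_num)
  linarith

/-- The sign change of the squared distance across a transversal crossing. -/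
lemma cross_sign (s : ℂ) (φ ε : ℝ) (hs : ‖s - u φ‖ = 1) (hn : ‖s‖ ≤ 2)
    (hc : 1 / 2 ≤ |s.re * Real.sin φ - s.im * Real.cos φ|) (hε : 0 < ε) (hε' : ε < 1 / 4) :
    (‖s - u (φ - ε)‖ ^ 2 - 1) * (‖s - u (φ + ε)‖ ^ 2 - 1) < 0 := by
  set c := s.re * Real.sin φ - s.im * Real.cos φ with hcdef
  set a := s.re * Real.cos φ + s.im * Real.sin φ with hadef
  set S := s.re ^ 2 + s.im ^ 2 with hSdef
  have hS4 : S ≤ 4 := by
    have : ‖s‖ ^ 2 = S := sq_norm_eq s
    have h0 := norm_nonneg s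
    nlinarith
  have hS0 : 0 ≤ S := by positivity
  have hpq := Real.cos_sq_add_sin_sq φ
  have hCZ := Real.cos_sq_add_sin_sq ε
  have h2a : S = 2 * a := by
    have h1 : ‖s - u φ‖ ^ 2 = 1 := by rw [hs]; norm_num
    rw [sq_norm_eq, Complex.sub_re, Complex.sub_im, u_re, u_im] at h1
    rw [hSdef, hadef]
    nlinarith
  have hplus : ‖s - u (φ + ε)‖ ^ 2 - 1 = S * (1 - Real.cos ε) + 2 * Real.sin ε * c := by
    rw [sq_norm_eq, Complex.sub_re, Complex.sub_im, u_re, u_im, Real.cos_add, Real.sin_add]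
    have e : S * (1 - Real.cos ε) = S - 2 * a * Real.cos ε := by rw [← h2a]; ring
    rw [e, hSdef, hadef, hcdef]
    nlinarith
  have hminus : ‖s - u (φ - ε)‖ ^ 2 - 1 = S * (1 - Real.cos ε) - 2 * Real.sin ε * c := by
    rw [sq_norm_eq, Complex.sub_re, Complex.sub_im, u_re, u_im, Real.cos_sub, Real.sin_sub]
    have e : S * (1 - Real.cos ε) = S - 2 * a * Real.cos ε := by rw [← h2a]; ring
    rw [e, hSdef, hadef, hcdef]
    nlinarith
  rw [hplus, hminus]
  have hcos := Real.one_sub_sq_div_two_le_cos (x := ε)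
  have hcos1 := Real.cos_le_one ε
  have hsin := Real.sin_gt_sub_cube hε
  set C := Real.cos ε
  set Z := Real.sin ε
  have hx0 : 0 ≤ S * (1 - C) := mul_nonneg hS0 (by linarith)
  have hx1 : S * (1 - C) ≤ 2 * ε ^ 2 := by
    have h1 : S * (1 - C) ≤ 4 * (1 - C) := mul_le_mul_of_nonneg_right hS4 (by linarith)
    linarith
  have he2 : ε ^ 2 < ε / 4 := by
    have := mul_pos hε (sub_pos.2 hε')
    have e : ε * (1 / 4 - ε) = ε / 4 - ε ^ 2 := by ring
    rw [e] at this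
    linarith
  have he3 : ε ^ 3 ≤ ε ^ 2 / 4 := by
    have := mul_nonneg (sq_nonneg ε) (sub_nonneg.2 hε'.le)
    have e : ε ^ 2 * (1 / 4 - ε) = ε ^ 2 / 4 - ε ^ 3 := by ring
    rw [e] at this
    linarith
  have hZlow : 2 * ε ^ 2 < Z := by linarith
  have hZpos : 0 < Z := by
    have := sq_nonneg ε
    linarith
  have hx2 : S * (1 - C) < 2 * Z * |c| := by
    have h2 : 0 ≤ Z * (2 * |c| - 1) := mul_nonneg hZpos.le (by linarith)
    have e : Z * (2 * |c| - 1) = 2 * Z * |c| - Z := by ring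
    rw [e] at h2
    linarith
  have hy : (2 * Z * c) ^ 2 = (2 * Z * |c|) ^ 2 := by
    rw [mul_pow, mul_pow (2 * Z) |c|, sq_abs]
  have hlt : (S * (1 - C)) ^ 2 < (2 * Z * c) ^ 2 := by
    rw [hy]
    exact pow_lt_pow_left₀ hx2 hx0 (by norm_num)
  have e : (S * (1 - C) - 2 * Z * c) * (S * (1 - C) + 2 * Z * c) =
      (S * (1 - C)) ^ 2 - (2 * Z * c) ^ 2 := by ring
  rw [e]
  linarith

/-- A closed cover of the plane by regular closed sets without unit pair between the interior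
and the whole of a piece. -/
structure RegCover {ι : Type*} (A : ι → Set ℂ) : Prop where
  closed : ∀ i, IsClosed (A i)
  cover : ∀ z, ∃ i, z ∈ A i
  reg : ∀ i, A i ⊆ closure (interior (A i))
  noUnit : ∀ i, ∀ t ∈ interior (A i), ∀ y ∈ A i, ‖t - y‖ ≠ 1

section

variable {ι : Type*} {A : ι → Set ℂ}

/-- If `b` lies in a piece, the unit circle around `b` does not cross an arc of a unit circle
contained in this piece. -/
lemma cross_core (hA : RegCover A) {i : ι} {b w : ℂ} (hb : b ∈ A i) {a₁ a₂ : ℝ} (ha : a₁ ≤ a₂)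
    (harc : ∀ ψ ∈ Icc a₁ a₂, w + u ψ ∈ A i)
    (hsign : (‖b - (w + u a₁)‖ ^ 2 - 1) * (‖b - (w + u a₂)‖ ^ 2 - 1) < 0) : False := by
  let O : Set ℂ := {t | (‖t - (w + u a₁)‖ ^ 2 - 1) * (‖t - (w + u a₂)‖ ^ 2 - 1) < 0}
  have hO : IsOpen O := by
    apply isOpen_lt _ continuous_const
    fun_prop
  obtain ⟨t, htO, htI⟩ := _root_.mem_closure_iff.1 (hA.reg i hb) O hO hsign
  let f : ℝ → ℝ := fun ψ => ‖t - (w + u ψ)‖ ^ 2 - 1
  have hf : ContinuousOn f (Icc a₁ a₂) := by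
    have : Continuous f := by
      have := continuous_u
      fun_prop
    exact this.continuousOn
  have hzero : ∃ ψ ∈ Icc a₁ a₂, f ψ = 0 := by
    have htO' : f a₁ * f a₂ < 0 := htO
    rcases mul_neg_iff.1 htO' with ⟨h1, h2⟩ | ⟨h1, h2⟩
    · exact intermediate_value_Icc' ha hf ⟨h2.le, h1.le⟩
    · exact intermediate_value_Icc ha hf ⟨h1.le, h2.le⟩
  obtain ⟨ψ, hψ, hψ0⟩ := hzero
  refine hA.noUnit i t htI (w + u ψ) (harc ψ hψ) ?_
  have h0 := norm_nonneg (t - (w + u ψ))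
  have h1 : ‖t - (w + u ψ)‖ ^ 2 = 1 := by
    have : f ψ = ‖t - (w + u ψ)‖ ^ 2 - 1 := rfl
    linarith
  nlinarith

/-- The transversal form of `cross_core`. -/
lemma cross (hA : RegCover A) {i : ι} {b w : ℂ} (hb : b ∈ A i) {φ : ℝ}
    (hs : ‖(b - w) - u φ‖ = 1) (hn : ‖b - w‖ ≤ 2)
    (hc : 1 / 2 ≤ |(b - w).re * Real.sin φ - (b - w).im * Real.cos φ|)
    {J : Set ℝ} (hJ : J ∈ 𝓝 φ) (harc : ∀ ψ ∈ J, w + u ψ ∈ A i) : False := by
  obtain ⟨ε₀, hε₀, hball⟩ := Metric.mem_nhds_iff.1 hJ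
  let ε := min (ε₀ / 2) (1 / 8)
  have hε : 0 < ε := lt_min (by linarith) (by norm_num)
  have hε1 : ε ≤ ε₀ / 2 := min_le_left _ _
  have hε2 : ε ≤ 1 / 8 := min_le_right _ _
  have hsgn := cross_sign (b - w) φ ε hs hn hc hε (by linarith)
  refine cross_core hA hb (w := w) (a₁ := φ - ε) (a₂ := φ + ε) (by linarith) ?_ ?_
  · intro ψ hψ
    apply harc
    apply hball
    rw [mem_ball, Real.dist_eq, abs_lt]
    constructor
    · linarith [hψ.1]
    · linarith [hψ.2]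
  · have e1 : b - (w + u (φ - ε)) = (b - w) - u (φ - ε) := by ring
    have e2 : b - (w + u (φ + ε)) = (b - w) - u (φ + ε) := by ring
    rw [e1, e2]
    exact hsgn

/-- The chord rule: a point of a piece on a unit circle excludes the arcs around the
points at angular distance `π / 3`. -/
lemma chord (hA : RegCover A) {z : ℂ} {i : ι} {θ : ℝ} (h : z + u θ ∈ A i) {J : Set ℝ}
    (hJ : J ∈ 𝓝 (θ + Real.pi / 3)) (harc : ∀ ψ ∈ J, z + u ψ ∈ A i) : False := by
  have e : z + u θ - z = u θ := by ring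
  refine cross hA h (w := z) (φ := θ + Real.pi / 3) ?_ ?_ ?_ hJ harc
  · rw [e]
    apply norm_eq_one_of_sq
    rw [sq_norm_eq, Complex.sub_re, Complex.sub_im, u_re, u_im, u_re, u_im, Real.cos_add,
      Real.sin_add, Real.cos_pi_div_three]
    have h1 := Real.cos_sq_add_sin_sq θ
    have h2 := Real.cos_sq_add_sin_sq (Real.pi / 3)
    rw [Real.cos_pi_div_three] at h2
    nlinarith
  · rw [e, norm_u]
    norm_num
  · rw [e, u_re, u_im]
    have : Real.cos θ * Real.sin (θ + Real.pi / 3) - Real.sin θ * Real.cos (θ + Real.pi / 3)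
        = Real.sin (Real.pi / 3) := by
      rw [Real.sin_add, Real.cos_add]
      have h1 := Real.cos_sq_add_sin_sq θ
      have h2 : Real.cos θ * (Real.sin θ * Real.cos (Real.pi / 3) +
          Real.cos θ * Real.sin (Real.pi / 3)) - Real.sin θ * (Real.cos θ * Real.cos (Real.pi / 3) -
          Real.sin θ * Real.sin (Real.pi / 3)) =
          Real.sin (Real.pi / 3) * (Real.cos θ ^ 2 + Real.sin θ ^ 2) := by ring
      rw [h2, h1, mul_one]
    rw [this, abs_of_nonneg (by linarith [half_le_sin_pi_div_three])]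
    exact half_le_sin_pi_div_three

/-- Removing finitely many closed sets, none of which contains an open piece of `J`, leaves a
nonempty open piece of `J`. -/
lemma avoid_finset {X α : Type*} [TopologicalSpace X] (s : Finset α) (F : α → Set X)
    (hF : ∀ a ∈ s, IsClosed (F a)) (J : Set X) (hJ : IsOpen J) (hne : J.Nonempty)
    (h : ∀ a ∈ s, ∀ J' : Set X, IsOpen J' → J'.Nonempty → J' ⊆ J → ¬ J' ⊆ F a) :
    ∃ J' : Set X, IsOpen J' ∧ J'.Nonempty ∧ J' ⊆ J ∧ ∀ a ∈ s, ∀ x ∈ J', x ∉ F a := by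
  classical
  induction s using Finset.induction_on with
  | empty => exact ⟨J, hJ, hne, subset_rfl, by simp⟩
  | insert a s _ ih =>
    obtain ⟨J₁, h1, h2, h3, h4⟩ := ih (fun b hb => hF b (Finset.mem_insert_of_mem hb))
      (fun b hb => h b (Finset.mem_insert_of_mem hb))
    refine ⟨J₁ \ F a, h1.sdiff (hF a (Finset.mem_insert_self a s)), ?_, sdiff_subset.trans h3, ?_⟩
    · by_contra hemp
      rw [not_nonempty_iff_eq_empty, sdiff_eq_empty] at hemp
      exact h a (Finset.mem_insert_self a s) J₁ h1 h2 h3 hemp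
    · intro b hb x hx
      rcases Finset.mem_insert.1 hb with rfl | hb
      · exact hx.2
      · exact h4 b hb x hx.1

/-- Points outside all other pieces are interior to their piece. -/
lemma mem_interior_of_only (hA : RegCover A) [Finite ι] {p : ℂ} {l : ι}
    (h : ∀ j, j ≠ l → p ∉ A j) : p ∈ interior (A l) := by
  have hO : IsOpen {q : ℂ | ∀ j, j ≠ l → q ∉ A j} := by
    have : {q : ℂ | ∀ j, j ≠ l → q ∉ A j} = ⋂ j, ⋂ (_ : j ≠ l), (A j)ᶜ := by
      ext q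
      simp
    rw [this]
    exact isOpen_iInter_of_finite fun j => isOpen_iInter_of_finite fun _ => (hA.closed j).isOpen_compl
  refine mem_interior.2 ⟨_, ?_, hO, h⟩
  intro q hq
  obtain ⟨i, hi⟩ := hA.cover q
  by_cases hil : i = l
  · exact hil ▸ hi
  · exact (hq i hil hi).elim

/-- The open set of points avoiding the pieces that avoid `x`. -/
lemma isOpen_avoid (hA : RegCover A) [Finite ι] (x : ℂ) :
    IsOpen {q : ℂ | ∀ j, x ∉ A j → q ∉ A j} := by
  have : {q : ℂ | ∀ j, x ∉ A j → q ∉ A j} = ⋂ j, ⋂ (_ : x ∉ A j), (A j)ᶜ := by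
    ext q
    simp
  rw [this]
  exact isOpen_iInter_of_finite fun j => isOpen_iInter_of_finite fun _ => (hA.closed j).isOpen_compl

/-- No double contact arc. -/
def NoArc (A : ι → Set ℂ) : Prop :=
  ∀ i j, i ≠ j → ∀ z, z ∈ A i → z ∈ A j → ∀ θ₁ θ₂ : ℝ, θ₁ < θ₂ →
    ¬ ∀ θ ∈ Icc θ₁ θ₂, z + u θ ∈ A i ∧ z + u θ ∈ A j

/-- The free colour lemma. -/
lemma free (hA : RegCover A) [Finite ι] (hNA : NoArc A) (z : ℂ) {J : Set ℝ} (hJ : IsOpen J)
    (hne : J.Nonempty) :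
    ∃ i, z ∉ A i ∧ ∃ J' : Set ℝ, IsOpen J' ∧ J'.Nonempty ∧ J' ⊆ J ∧ ∀ θ ∈ J', z + u θ ∈ A i := by
  classical
  have := Fintype.ofFinite ι
  by_contra hcon
  push Not at hcon
  let Ψ : ι → Set ℝ := fun i => {θ | z + u θ ∈ A i}
  have hΨ : ∀ i, IsClosed (Ψ i) := by
    intro i
    have hc : Continuous fun θ : ℝ => z + u θ := continuous_const.add continuous_u
    exact (hA.closed i).preimage hc
  obtain ⟨J₁, h1o, h1n, h1s, h1a⟩ := avoid_finset (Finset.univ.filter fun i => z ∉ A i) Ψ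
    (fun i _ => hΨ i) J hJ hne (by
      intro i hi J' hJ' hJ'ne hJ'J hsub
      have hi' : z ∉ A i := by simpa using hi
      obtain ⟨θ, hθ, hθ'⟩ := hcon i hi' J' hJ' hJ'ne hJ'J
      exact hθ' (hsub hθ))
  obtain ⟨J₂, h2o, h2n, h2s, h2a⟩ := avoid_finset
    (Finset.univ.filter fun p : ι × ι => p.1 ≠ p.2 ∧ z ∈ A p.1 ∧ z ∈ A p.2)
    (fun p => Ψ p.1 ∩ Ψ p.2)
    (fun p _ => (hΨ p.1).inter (hΨ p.2)) J₁ h1o h1n (by
      intro p hp J' hJ' hJ'ne _ hsub
      have hp' : p.1 ≠ p.2 ∧ z ∈ A p.1 ∧ z ∈ A p.2 := by simpa using hp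
      obtain ⟨θ, hθ⟩ := hJ'ne
      obtain ⟨ε, hε, hball⟩ := Metric.isOpen_iff.1 hJ' θ hθ
      refine hNA p.1 p.2 hp'.1 z hp'.2.1 hp'.2.2 (θ - ε / 2) (θ + ε / 2) (by linarith) ?_
      intro ψ hψ
      have hm : ψ ∈ J' := by
        apply hball
        rw [mem_ball, Real.dist_eq, abs_lt]
        constructor
        · linarith [hψ.1]
        · linarith [hψ.2]
      exact hsub hm)
  obtain ⟨θ, hθ⟩ := h2n
  obtain ⟨l, hl⟩ := hA.cover (z + u θ)
  have hzl : z ∈ A l := by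
    by_contra hzl
    exact h1a l (by simpa using hzl) θ (h2s hθ) hl
  have hother : ∀ j, j ≠ l → z + u θ ∉ A j := by
    intro j hj hmem
    by_cases hzj : z ∈ A j
    · exact h2a (l, j) (by simpa using ⟨hj.symm, hzl, hzj⟩) θ hθ ⟨hl, hmem⟩
    · exact h1a j (by simpa using hzj) θ (h2s hθ) hmem
  have hint := mem_interior_of_only hA hother
  apply hA.noUnit l _ hint z hzl
  have : z + u θ - z = u θ := by ring
  rw [this, norm_u]

/-- A closed set meeting every nonempty open set of angles is a full circle, which is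
impossible. -/
lemma not_dense_on_circle (hA : RegCover A) (z : ℂ) (i : ι)
    (h : ∀ J : Set ℝ, IsOpen J → J.Nonempty → ∃ θ ∈ J, z + u θ ∈ A i) : False := by
  have hall : ∀ θ : ℝ, z + u θ ∈ A i := by
    intro θ
    have hc : Continuous fun θ : ℝ => z + u θ := continuous_const.add continuous_u
    have hcl : IsClosed {θ : ℝ | z + u θ ∈ A i} := (hA.closed i).preimage hc
    have : θ ∈ closure {θ : ℝ | z + u θ ∈ A i} := by
      rw [_root_.mem_closure_iff]
      intro o ho hθ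
      obtain ⟨ψ, hψ, hψ'⟩ := h o ho ⟨θ, hθ⟩
      exact ⟨ψ, hψ, hψ'⟩
    rwa [hcl.closure_eq] at this
  exact chord hA (hall 0) (J := univ) Filter.univ_mem (fun ψ _ => hall ψ)

/-- At every point at least two colours are absent. -/
lemma two_free (hA : RegCover A) [Finite ι] (hNA : NoArc A) (z : ℂ) :
    ∃ d e, d ≠ e ∧ z ∉ A d ∧ z ∉ A e := by
  by_contra hcon
  push Not at hcon
  obtain ⟨d, hd, _⟩ := free hA hNA z (J := univ) isOpen_univ univ_nonempty
  refine not_dense_on_circle hA z d ?_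
  intro J hJ hne
  obtain ⟨i, hi, J', _, ⟨θ, hθ⟩, hJ'J, harc⟩ := free hA hNA z hJ hne
  have hid : i = d := by
    by_contra hid
    exact hd (hcon i d hid hi)
  exact ⟨θ, hJ'J hθ, hid ▸ harc θ hθ⟩

end

lemma fin5_eq {i j k d e l : Fin 5} (h1 : i ≠ j) (h2 : j ≠ k) (h3 : i ≠ k) (h4 : i ≠ d)
    (h5 : i ≠ e) (h6 : j ≠ d) (h7 : j ≠ e) (h8 : k ≠ d) (h9 : k ≠ e) (h10 : d ≠ e)
    (h11 : l ≠ d) (h12 : l ≠ e) : l = i ∨ l = j ∨ l = k := by
  have hcard : ({i, j, k, d, e} : Finset (Fin 5)).card = 5 := by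
    rw [Finset.card_insert_of_notMem, Finset.card_insert_of_notMem, Finset.card_insert_of_notMem,
      Finset.card_insert_of_notMem, Finset.card_singleton]
    · simpa using h10
    · simp [h8, h9]
    · simp [h2, h6, h7]
    · simp [h1, h3, h4, h5]
  have huniv : ({i, j, k, d, e} : Finset (Fin 5)) = Finset.univ :=
    Finset.eq_univ_of_card _ (by simpa using hcard)
  have hl : l ∈ ({i, j, k, d, e} : Finset (Fin 5)) := by rw [huniv]; exact Finset.mem_univ l
  simp only [Finset.mem_insert, Finset.mem_singleton] at hl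
  tauto

lemma fin5_no_six {a b c d e f : Fin 5} (h1 : a ≠ b) (h2 : a ≠ c) (h3 : a ≠ d) (h4 : a ≠ e)
    (h5 : a ≠ f) (h6 : b ≠ c) (h7 : b ≠ d) (h8 : b ≠ e) (h9 : b ≠ f) (h10 : c ≠ d) (h11 : c ≠ e)
    (h12 : c ≠ f) (h13 : d ≠ e) (h14 : d ≠ f) (h15 : e ≠ f) : False := by
  have hcard : ({a, b, c, d, e, f} : Finset (Fin 5)).card = 6 := by
    rw [Finset.card_insert_of_notMem, Finset.card_insert_of_notMem, Finset.card_insert_of_notMem,
      Finset.card_insert_of_notMem, Finset.card_insert_of_notMem, Finset.card_singleton]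
    · simpa using h15
    · simp [h13, h14]
    · simp [h10, h11, h12]
    · simp [h6, h7, h8, h9]
    · simp [h1, h2, h3, h4, h5]
  have := Finset.card_le_univ ({a, b, c, d, e, f} : Finset (Fin 5))
  rw [hcard] at this
  simp at this

/-- The main theorem on regular closed covers by five sets, formulated with arcs in `ℂ`. -/
theorem exists_double_arc {A : Fin 5 → Set ℂ} (hA : RegCover A) :
    ∃ i j, i ≠ j ∧ ∃ z, z ∈ A i ∧ z ∈ A j ∧ ∃ θ₁ θ₂ : ℝ, θ₁ < θ₂ ∧
      ∀ θ ∈ Icc θ₁ θ₂, z + u θ ∈ A i ∧ z + u θ ∈ A j := by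
  classical
  by_contra hcon
  have hNA : NoArc A := by
    intro i j hij z hzi hzj θ₁ θ₂ hθ harc
    exact hcon ⟨i, j, hij, z, hzi, hzj, θ₁, θ₂, hθ, harc⟩
  -- a triple point
  obtain ⟨v, i, j, k, hij, hjk, hik, hvi, hvj, hvk⟩ :=
    triple_point A (fun i => interior (A i)) hA.closed hA.cover hA.reg hA.noUnit
  obtain ⟨d, e, hde, hvd, hve⟩ := two_free hA hNA v
  have hid : i ≠ d := fun h => hvd (h ▸ hvi)
  have hie : i ≠ e := fun h => hve (h ▸ hvi)
  have hjd : j ≠ d := fun h => hvd (h ▸ hvj)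
  have hje : j ≠ e := fun h => hve (h ▸ hvj)
  have hkd : k ≠ d := fun h => hvd (h ▸ hvk)
  have hke : k ≠ e := fun h => hve (h ▸ hvk)
  have hvall : ∀ l, l ≠ d → l ≠ e → v ∈ A l := by
    intro l h1 h2
    rcases fin5_eq hij hjk hik hid hie hjd hje hkd hke hde h1 h2 with rfl | rfl | rfl
    · exact hvi
    · exact hvj
    · exact hvk
  have hfreeonly : ∀ l, v ∉ A l → l = d ∨ l = e := by
    intro l hl
    by_contra hne
    push Not at hne
    exact hl (hvall l hne.1 hne.2)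
  -- the sets of angles
  let G : Fin 5 → Set ℝ := fun l => interior {θ : ℝ | v + u θ ∈ A l}
  have hGo : ∀ l, IsOpen (G l) := fun l => isOpen_interior
  have hGsub : ∀ l, ∀ θ ∈ G l, v + u θ ∈ A l := by
    intro l θ hθ
    have : θ ∈ {θ : ℝ | v + u θ ∈ A l} := interior_subset hθ
    exact this
  have hcirc : ∀ l, IsClosed {θ : ℝ | v + u θ ∈ A l} := by
    intro l
    have hc : Continuous fun θ : ℝ => v + u θ := continuous_const.add continuous_u
    exact (hA.closed l).preimage hc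
  have hclsub : ∀ l, ∀ θ ∈ closure (G l), v + u θ ∈ A l := by
    intro l θ hθ
    have : closure (G l) ⊆ {θ : ℝ | v + u θ ∈ A l} :=
      closure_minimal interior_subset (hcirc l)
    exact this hθ
  have hdense : ∀ J : Set ℝ, IsOpen J → J.Nonempty → (J ∩ G d).Nonempty ∨ (J ∩ G e).Nonempty := by
    intro J hJ hne
    obtain ⟨l, hl, J', hJ'o, ⟨θ, hθ⟩, hJ'J, harc⟩ := free hA hNA v hJ hne
    have hmem : θ ∈ G l := mem_interior.2 ⟨J', fun ψ hψ => harc ψ hψ, hJ'o, hθ⟩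
    rcases hfreeonly l hl with rfl | rfl
    · exact Or.inl ⟨θ, hJ'J hθ, hmem⟩
    · exact Or.inr ⟨θ, hJ'J hθ, hmem⟩
  have hcovcl : (univ : Set ℝ) ⊆ closure (G d) ∪ closure (G e) := by
    intro θ _
    by_contra hθ
    rw [mem_union, not_or] at hθ
    have hO : IsOpen ((closure (G d))ᶜ ∩ (closure (G e))ᶜ) :=
      isClosed_closure.isOpen_compl.inter isClosed_closure.isOpen_compl
    rcases hdense _ hO ⟨θ, hθ⟩ with ⟨ψ, hψ, hψ'⟩ | ⟨ψ, hψ, hψ'⟩
    · exact hψ.1 (subset_closure hψ')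
    · exact hψ.2 (subset_closure hψ')
  have hne1 : (G d).Nonempty := by
    by_contra hemp
    refine not_dense_on_circle hA v e ?_
    intro J hJ hne
    rcases hdense J hJ hne with ⟨ψ, _, hψ'⟩ | ⟨ψ, hψ, hψ'⟩
    · exact (hemp ⟨ψ, hψ'⟩).elim
    · exact ⟨ψ, hψ, hGsub e ψ hψ'⟩
  have hne2 : (G e).Nonempty := by
    by_contra hemp
    refine not_dense_on_circle hA v d ?_
    intro J hJ hne
    rcases hdense J hJ hne with ⟨ψ, hψ, hψ'⟩ | ⟨ψ, _, hψ'⟩
    · exact ⟨ψ, hψ, hGsub d ψ hψ'⟩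
    · exact (hemp ⟨ψ, hψ'⟩).elim
  obtain ⟨θ₀, _, hθ₀d, hθ₀e⟩ := isPreconnected_closed_iff.1 isPreconnected_univ
    (closure (G d)) (closure (G e)) isClosed_closure isClosed_closure hcovcl
    (by obtain ⟨x, hx⟩ := hne1; exact ⟨x, mem_univ x, subset_closure hx⟩)
    (by obtain ⟨x, hx⟩ := hne2; exact ⟨x, mem_univ x, subset_closure hx⟩)
  -- the shift rule
  have hshift : ∀ a b : Fin 5, (a = d ∧ b = e) ∨ (a = e ∧ b = d) → ∀ θ ∈ closure (G a),
      θ + Real.pi / 3 ∈ closure (G b) := by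
    intro a b hab θ hθ
    rw [_root_.mem_closure_iff]
    intro N hN hθN
    have hc1 : Continuous fun x : ℝ => x + Real.pi / 3 := by fun_prop
    have hc2 : Continuous fun x : ℝ => x - Real.pi / 3 := by fun_prop
    have hpre : IsOpen ((fun x : ℝ => x + Real.pi / 3) ⁻¹' N) := hN.preimage hc1
    obtain ⟨m, hm1, hm2⟩ := _root_.mem_closure_iff.1 hθ _ hpre hθN
    let M : Set ℝ := (fun x : ℝ => x - Real.pi / 3) ⁻¹' (((fun x : ℝ => x + Real.pi / 3) ⁻¹' N) ∩ G a)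
    have hMo : IsOpen M := (hpre.inter (hGo a)).preimage hc2
    have hMne : M.Nonempty := by
      refine ⟨m + Real.pi / 3, ?_⟩
      simp only [M, mem_preimage, add_sub_cancel_right]
      exact ⟨hm1, hm2⟩
    have hMN : ∀ ψ ∈ M, ψ ∈ N := by
      intro ψ hψ
      have := hψ.1
      simpa using this
    have hMa : ∀ ψ ∈ M, ψ ∉ G a := by
      intro ψ hψ hψa
      have h1 : v + u (ψ - Real.pi / 3) ∈ A a := hGsub a _ hψ.2
      have hn : {θ : ℝ | v + u θ ∈ A a} ∈ 𝓝 (ψ - Real.pi / 3 + Real.pi / 3) := by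
        rw [sub_add_cancel]
        exact mem_interior_iff_mem_nhds.1 hψa
      exact chord hA h1 hn (fun ψ hψ => hψ)
    rcases hab with ⟨rfl, rfl⟩ | ⟨rfl, rfl⟩
    · rcases hdense M hMo hMne with ⟨ψ, hψ, hψ'⟩ | ⟨ψ, hψ, hψ'⟩
      · exact (hMa ψ hψ hψ').elim
      · exact ⟨ψ, hMN ψ hψ, hψ'⟩
    · rcases hdense M hMo hMne with ⟨ψ, hψ, hψ'⟩ | ⟨ψ, hψ, hψ'⟩
      · exact ⟨ψ, hMN ψ hψ, hψ'⟩
      · exact (hMa ψ hψ hψ').elim
  -- the points x and x'
  set θ₁ := θ₀ + Real.pi / 3 with hθ₁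
  have hθ₁e : θ₁ ∈ closure (G e) := hshift d e (Or.inl ⟨rfl, rfl⟩) θ₀ hθ₀d
  have hθ₁d : θ₁ ∈ closure (G d) := hshift e d (Or.inr ⟨rfl, rfl⟩) θ₀ hθ₀e
  set x := v + u θ₀ with hx
  set x' := v + u θ₁ with hx'
  have hxd : x ∈ A d := hclsub d θ₀ hθ₀d
  have hxe : x ∈ A e := hclsub e θ₀ hθ₀e
  have hx'd : x' ∈ A d := hclsub d θ₁ hθ₁d
  have hx'e : x' ∈ A e := hclsub e θ₁ hθ₁e
  set φ₀ := θ₀ - Real.pi / 3 with hφ₀
  have hxx' : x' + u φ₀ = x := by
    rw [hx, hx', add_assoc, hθ₁, hφ₀, u_shift]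
  let J : Set ℝ := (fun ψ : ℝ => x' + u ψ) ⁻¹' {q : ℂ | ∀ j, x ∉ A j → q ∉ A j}
  have hcx' : Continuous fun ψ : ℝ => x' + u ψ := continuous_const.add continuous_u
  have hJo : IsOpen J := (isOpen_avoid hA x).preimage hcx'
  have hφJ : φ₀ ∈ J := by
    show ∀ j, x ∉ A j → x' + u φ₀ ∉ A j
    rw [hxx']
    exact fun j hj => hj
  -- the new colour on this arc
  have hnew : ∀ J₁ : Set ℝ, IsOpen J₁ → J₁.Nonempty → J₁ ⊆ J →
      ∃ l, x' ∉ A l ∧ x ∈ A l ∧ l ≠ d ∧ l ≠ e ∧ ∃ ψ ∈ J₁, x' + u ψ ∈ A l := by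
    intro J₁ hJ₁ hne hsub
    obtain ⟨l, hl, J', _, ⟨ψ, hψ⟩, hJ'J, harc⟩ := free hA hNA x' hJ₁ hne
    refine ⟨l, hl, ?_, ?_, ?_, ψ, hJ'J hψ, harc ψ hψ⟩
    · by_contra hxl
      exact (hsub (hJ'J hψ)) l hxl (harc ψ hψ)
    · rintro rfl
      exact hl hx'd
    · rintro rfl
      exact hl hx'e
  obtain ⟨y, hy1, hy2, hy3, hy4, _⟩ := hnew J hJo ⟨φ₀, hφJ⟩ subset_rfl
  have huniq : ∀ l, x ∈ A l → l ≠ d → l ≠ e → l = y := by
    intro l hl h1 h2
    by_contra hly
    obtain ⟨f, f', hff, hxf, hxf'⟩ := two_free hA hNA x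
    have a1 : d ≠ f := fun h => hxf (h ▸ hxd)
    have a2 : d ≠ f' := fun h => hxf' (h ▸ hxd)
    have a3 : e ≠ f := fun h => hxf (h ▸ hxe)
    have a4 : e ≠ f' := fun h => hxf' (h ▸ hxe)
    have a5 : y ≠ f := fun h => hxf (h ▸ hy2)
    have a6 : y ≠ f' := fun h => hxf' (h ▸ hy2)
    have a7 : l ≠ f := fun h => hxf (h ▸ hl)
    have a8 : l ≠ f' := fun h => hxf' (h ▸ hl)
    exact fin5_no_six hde hy3.symm h1.symm a1 a2 hy4.symm h2.symm a3 a4 (Ne.symm hly) a5 a6 a7 a8 hff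
  have hcly : IsClosed {ψ : ℝ | x' + u ψ ∈ A y} := (hA.closed y).preimage hcx'
  have harcy : ∀ ψ ∈ J, x' + u ψ ∈ A y := by
    intro ψ hψ
    have : ψ ∈ closure {ψ : ℝ | x' + u ψ ∈ A y} := by
      rw [_root_.mem_closure_iff]
      intro o ho hψo
      obtain ⟨l, _, h2, h3, h4, ψ', hψ', hmem⟩ :=
        hnew (o ∩ J) (ho.inter hJo) ⟨ψ, hψo, hψ⟩ inter_subset_right
      have hl := huniq l h2 h3 h4
      exact ⟨ψ', hψ'.1, hl ▸ hmem⟩
    rwa [hcly.closure_eq] at this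
  -- the final contradiction
  have hvy : v ∈ A y := hvall y hy3 hy4
  have hvx' : v - x' = - u θ₁ := by
    rw [hx']
    ring
  refine cross hA hvy (w := x') (φ := φ₀) ?_ ?_ ?_ (hJo.mem_nhds hφJ) harcy
  · rw [hvx']
    have : - u θ₁ - u φ₀ = - (u θ₁ + u φ₀) := by ring
    rw [this, norm_neg, hθ₁, hφ₀, u_shift, norm_u]
  · rw [hvx', norm_neg, norm_u]
    norm_num
  · rw [hvx', Complex.neg_re, Complex.neg_im, u_re, u_im]
    have e1 : -Real.cos θ₁ * Real.sin φ₀ - -Real.sin θ₁ * Real.cos φ₀ = Real.sin (θ₁ - φ₀) := by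
      rw [Real.sin_sub θ₁ φ₀]
      ring
    have e2 : θ₁ - φ₀ = Real.pi - Real.pi / 3 := by
      rw [hθ₁, hφ₀]
      ring
    rw [e1, e2, Real.sin_pi_sub, abs_of_nonneg (by linarith [half_le_sin_pi_div_three])]
    exact half_le_sin_pi_div_three

end Vale.Agent.Lib.P032
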