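import Mathlib
import Vale.Agent.Lib.P032.Main

/-!
Open sets version of the main theorem, transfer to the Euclidean plane.
-/

open Metric Set Topology

namespace Vale.Agent.Lib.P032

/-- Regularised closures of open sets without unit pairs form a regular cover. -/
lemma regCover_of_open {ι : Type*} [Finite ι] (U : ι → Set ℂ) (hU : ∀ i, IsOpen (U i))
    (hd : Dense (⋃ i, U i)) (h1 : ∀ i, ∀ x ∈ U i, ∀ y ∈ U i, ‖x - y‖ ≠ 1) :
    RegCover fun i => closure (U i) := by
  refine ⟨fun i => isClosed_closure, ?_, ?_, ?_⟩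
  · intro z
    have : z ∈ closure (⋃ i, U i) := hd z
    rw [closure_iUnion_of_finite] at this
    simpa using this
  · intro i
    exact closure_mono (interior_maximal subset_closure (hU i))
  · intro i t ht y hy hty
    obtain ⟨r, hr, hball⟩ := Metric.isOpen_iff.1 isOpen_interior t ht
    obtain ⟨y', hy'U, hy'd⟩ := Metric.mem_closure_iff.1 hy (r / 2) (by linarith)
    obtain ⟨r', hr', hball'⟩ := Metric.isOpen_iff.1 (hU i) y' hy'U
    let t' := t + (y' - y)
    have ht' : t' ∈ interior (closure (U i)) := by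
      apply hball
      rw [mem_ball, dist_eq_norm]
      have : t' - t = y' - y := by simp only [t']; ring
      rw [this, ← dist_eq_norm, dist_comm]
      linarith
    obtain ⟨t'', ht''U, ht''d⟩ := Metric.mem_closure_iff.1 (interior_subset ht') r' hr'
    let y'' := y' + (t'' - t')
    have hy'' : y'' ∈ U i := by
      apply hball'
      rw [mem_ball, dist_eq_norm]
      have : y'' - y' = t'' - t' := by simp only [y'']; ring
      rw [this, ← dist_eq_norm, dist_comm]
      exact ht''d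
    apply h1 i t'' ht''U y'' hy''
    have : t'' - y'' = t - y := by simp only [y'', t']; ring
    rw [this]
    exact hty

/-- The main theorem for five open sets in `ℂ`. -/
theorem open_double_arc (U : Fin 5 → Set ℂ) (hU : ∀ i, IsOpen (U i))
    (hd : Dense (⋃ i, U i)) (h1 : ∀ i, ∀ x ∈ U i, ∀ y ∈ U i, ‖x - y‖ ≠ 1) :
    ∃ i j, i ≠ j ∧ ∃ z, z ∈ closure (U i) ∧ z ∈ closure (U j) ∧ ∃ θ₁ θ₂ : ℝ, θ₁ < θ₂ ∧
      ∀ θ ∈ Icc θ₁ θ₂, z + u θ ∈ closure (U i) ∧ z + u θ ∈ closure (U j) :=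
  exists_double_arc (regCover_of_open U hU hd h1)

/-- The Euclidean plane. -/
abbrev Plane := EuclideanSpace ℝ (Fin 2)

/-- The standard isometry from `ℂ` onto the Euclidean plane. -/
noncomputable def toPlane : ℂ ≃ₗᵢ[ℝ] Plane := Complex.orthonormalBasisOneI.repr

lemma toPlane_u (θ : ℝ) : toPlane (u θ) = !₂[Real.cos θ, Real.sin θ] := by
  have h : toPlane (u θ) = !₂[(u θ).re, (u θ).im] := rfl
  rw [h, u_re, u_im]

lemma toPlane_add_u (z : ℂ) (θ : ℝ) : toPlane (z + u θ) = toPlane z + !₂[Real.cos θ, Real.sin θ] := by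
  rw [map_add, toPlane_u]

lemma toPlane_mem_closure {S : Set Plane} {z : ℂ} :
    toPlane z ∈ closure S ↔ z ∈ closure (toPlane ⁻¹' S) := by
  have h := toPlane.toHomeomorph.preimage_closure S
  have h' : z ∈ toPlane.toHomeomorph ⁻¹' closure S ↔ z ∈ closure (toPlane.toHomeomorph ⁻¹' S) := by
    rw [h]
  exact h'

/-- The main theorem for five open sets in the Euclidean plane. -/
theorem plane_open_double_arc (U : Fin 5 → Set Plane) (hU : ∀ i, IsOpen (U i))
    (hd : Dense (⋃ i, U i)) (h1 : ∀ i, ∀ x ∈ U i, ∀ y ∈ U i, dist x y ≠ 1) :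
    ∃ i j, i ≠ j ∧ ∃ z, z ∈ closure (U i) ∧ z ∈ closure (U j) ∧ ∃ θ₁ θ₂ : ℝ, θ₁ < θ₂ ∧
      ∀ θ ∈ Icc θ₁ θ₂, z + !₂[Real.cos θ, Real.sin θ] ∈ closure (U i) ∧
        z + !₂[Real.cos θ, Real.sin θ] ∈ closure (U j) := by
  let U' : Fin 5 → Set ℂ := fun i => toPlane ⁻¹' (U i)
  have hU' : ∀ i, IsOpen (U' i) := fun i => (hU i).preimage toPlane.continuous
  have hd' : Dense (⋃ i, U' i) := by
    have : (⋃ i, U' i) = toPlane.toHomeomorph ⁻¹' (⋃ i, U i) := by
      ext z
      simp [U']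
    rw [this]
    exact hd.preimage toPlane.toHomeomorph.isOpenMap
  have h1' : ∀ i, ∀ x ∈ U' i, ∀ y ∈ U' i, ‖x - y‖ ≠ 1 := by
    intro i x hx y hy hxy
    apply h1 i _ hx _ hy
    rw [toPlane.dist_map, dist_eq_norm]
    exact hxy
  obtain ⟨i, j, hij, z, hzi, hzj, θ₁, θ₂, hθ, harc⟩ := open_double_arc U' hU' hd' h1'
  refine ⟨i, j, hij, toPlane z, toPlane_mem_closure.2 hzi, toPlane_mem_closure.2 hzj, θ₁, θ₂, hθ, ?_⟩
  intro θ hθ'
  rw [← toPlane_add_u]
  exact ⟨toPlane_mem_closure.2 (harc θ hθ').1, toPlane_mem_closure.2 (harc θ hθ').2⟩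

end Vale.Agent.Lib.P032
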