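import Mathlib
import Vale.Agent.Lib.P032.Transfer

/-!
Colourings whose classes have the property of Baire.
-/

open Metric Set Topology

namespace Vale.Agent.Lib.P032

/-- The largest open set in which `S` is comeagre. -/
def essOpen (S : Set Plane) : Set Plane := ⋃₀ {V | IsOpen V ∧ IsMeagre (V \ S)}

lemma essOpen_isOpen (S : Set Plane) : IsOpen (essOpen S) :=
  isOpen_sUnion fun _ hV => hV.1

lemma mem_essOpen_iff {S : Set Plane} {x : Plane} :
    x ∈ essOpen S ↔ ∃ V, IsOpen V ∧ IsMeagre (V \ S) ∧ x ∈ V := by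
  unfold essOpen
  constructor
  · rintro ⟨V, ⟨h1, h2⟩, h3⟩
    exact ⟨V, h1, h2, h3⟩
  · rintro ⟨V, h1, h2, h3⟩
    exact ⟨V, ⟨h1, h2⟩, h3⟩

lemma essOpen_no_unit {S : Set Plane} (hS : ∀ x ∈ S, ∀ y ∈ S, dist x y ≠ 1) :
    ∀ x ∈ essOpen S, ∀ y ∈ essOpen S, dist x y ≠ 1 := by
  intro x hx y hy hxy
  obtain ⟨V₁, h1o, h1m, hx1⟩ := mem_essOpen_iff.1 hx
  obtain ⟨V₂, h2o, h2m, hy2⟩ := mem_essOpen_iff.1 hy
  let a : Plane := y - x
  let T : Plane ≃ₜ Plane := Homeomorph.addRight a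
  have hT : ∀ p, T p = p + a := fun _ => rfl
  let V₃ : Set Plane := V₁ ∩ T ⁻¹' V₂
  have hV₃o : IsOpen V₃ := h1o.inter (h2o.preimage T.continuous)
  have hV₃n : V₃.Nonempty := by
    refine ⟨x, hx1, ?_⟩
    have : T x = y := by
      rw [hT]
      simp [a]
    simpa [this] using hy2
  have hM2 : IsMeagre (T ⁻¹' (V₂ \ S)) := h2m.preimage_of_isOpenMap T.continuous T.isOpenMap
  have hnm := not_isMeagre_of_isOpen hV₃o hV₃n
  have hex : ∃ p ∈ V₃, p ∈ S ∧ T p ∈ S := by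
    by_contra hcon
    push Not at hcon
    apply hnm
    refine (h1m.union hM2).mono ?_
    intro p hp
    by_cases hpS : p ∈ S
    · right
      exact ⟨hp.2, hcon p hp hpS⟩
    · left
      exact ⟨hp.1, hpS⟩
  obtain ⟨p, _, hpS, hTp⟩ := hex
  apply hS p hpS (T p) hTp
  rw [hT, dist_eq_norm, ← hxy, dist_comm x y, dist_eq_norm]
  have : p - (p + a) = -a := by abel
  rw [this, norm_neg]

lemma essOpen_dense {ι : Type*} [Finite ι] (c : Plane → ι)
    (hB : ∀ i, BaireMeasurableSet (c ⁻¹' {i})) :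
    Dense (⋃ i, essOpen (c ⁻¹' {i})) := by
  rw [dense_iff_inter_open]
  intro O hO hne
  by_contra hemp
  apply not_isMeagre_of_isOpen hO hne
  have hpiece : ∀ i, IsMeagre (O ∩ c ⁻¹' {i}) := by
    intro i
    obtain ⟨W, hWo, hW⟩ := (hB i).residualEq_isOpen
    have hev := Filter.eventuallyEq_set.1 hW
    have hm1 : IsMeagre (W \ c ⁻¹' {i}) := by
      unfold IsMeagre
      refine Filter.mem_of_superset hev ?_
      intro p hp hq
      exact hq.2 (hp.2 hq.1)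
    have hm2 : IsMeagre (c ⁻¹' {i} \ W) := by
      unfold IsMeagre
      refine Filter.mem_of_superset hev ?_
      intro p hp hq
      exact hq.2 (hp.1 hq.1)
    refine hm2.mono ?_
    rintro p ⟨hpO, hpc⟩
    refine ⟨hpc, ?_⟩
    intro hpW
    apply hemp
    refine ⟨p, hpO, mem_iUnion.2 ⟨i, mem_essOpen_iff.2 ⟨O ∩ W, hO.inter hWo, ?_, hpO, hpW⟩⟩⟩
    refine hm1.mono ?_
    rintro q ⟨hq, hq'⟩
    exact ⟨hq.2, hq'⟩
  have hunion : O = ⋃ i, O ∩ c ⁻¹' {i} := by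
    ext p
    simp
  rw [hunion]
  have := Fintype.ofFinite ι
  exact isMeagre_iUnion hpiece

lemma nonmeager_of_mem_closure {S : Set Plane} {p : Plane} (h : p ∈ closure (essOpen S)) {r : ℝ}
    (hr : 0 < r) : ¬ IsMeagre (ball p r ∩ S) := by
  intro hm
  obtain ⟨q, hq, hq'⟩ := Metric.mem_closure_iff.1 h r hr
  obtain ⟨V, hVo, hVm, hqV⟩ := mem_essOpen_iff.1 hq
  have hne : (V ∩ ball p r).Nonempty := ⟨q, hqV, by rwa [mem_ball, dist_comm]⟩
  apply not_isMeagre_of_isOpen (hVo.inter isOpen_ball) hne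
  refine (hVm.union hm).mono ?_
  rintro w ⟨hw1, hw2⟩
  by_cases hwS : w ∈ S
  · right
    exact ⟨hw2, hwS⟩
  · left
    exact ⟨hw1, hwS⟩

/-- The main theorem for colourings with the property of Baire. -/
theorem baire_double_arc (c : Plane → Fin 5) (hc : ∀ x y, dist x y = 1 → c x ≠ c y)
    (hB : ∀ i, BaireMeasurableSet (c ⁻¹' {i})) :
    ∃ i j, i ≠ j ∧ ∃ z, (∀ r > 0, ¬ IsMeagre (ball z r ∩ c ⁻¹' {i})) ∧
      (∀ r > 0, ¬ IsMeagre (ball z r ∩ c ⁻¹' {j})) ∧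
      ∃ θ₁ θ₂ : ℝ, θ₁ < θ₂ ∧ ∀ θ ∈ Icc θ₁ θ₂,
        (∀ r > 0, ¬ IsMeagre (ball (z + !₂[Real.cos θ, Real.sin θ]) r ∩ c ⁻¹' {i})) ∧
        (∀ r > 0, ¬ IsMeagre (ball (z + !₂[Real.cos θ, Real.sin θ]) r ∩ c ⁻¹' {j})) := by
  obtain ⟨i, j, hij, z, hzi, hzj, θ₁, θ₂, hθ, harc⟩ :=
    plane_open_double_arc (fun i => essOpen (c ⁻¹' {i})) (fun i => essOpen_isOpen _)
      (essOpen_dense c hB) (fun i => essOpen_no_unit (by
        intro x hx y hy hxy
        have hx' : c x = i := hx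
        have hy' : c y = i := hy
        exact hc x y hxy (hx'.trans hy'.symm)))
  refine ⟨i, j, hij, z, fun r hr => nonmeager_of_mem_closure hzi hr,
    fun r hr => nonmeager_of_mem_closure hzj hr, θ₁, θ₂, hθ, ?_⟩
  intro θ hθ'
  exact ⟨fun r hr => nonmeager_of_mem_closure (harc θ hθ').1 hr,
    fun r hr => nonmeager_of_mem_closure (harc θ hθ').2 hr⟩

end Vale.Agent.Lib.P032
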