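import Mathlib
import Vale.Agent.Lib.P032.BaireCase

/-!
A proper colouring of the plane with five colours has at most two closed classes.
-/

open Metric Set Topology

namespace Vale.Agent.Lib.P032

section

variable {c : ℂ → Fin 5}

/-- On a path whose points have closed colours only, the colour does not change. -/
lemma const_on_path {S : Set (Fin 5)} (hS : ∀ i ∈ S, IsClosed (c ⁻¹' {i})) {f : ℝ → ℂ}
    (hf : Continuous f) {a b : ℝ} (hab : a ≤ b) (hp : ∀ φ ∈ Icc a b, c (f φ) ∈ S) :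
    c (f a) = c (f b) := by
  by_contra hne
  have hclosed : IsClosed (f ⁻¹' (c ⁻¹' {c (f a)})) := (hS _ (hp a ⟨le_rfl, hab⟩)).preimage hf
  have hclosed' : IsClosed (f ⁻¹' (⋃ j ∈ S \ {c (f a)}, c ⁻¹' {j})) := by
    apply IsClosed.preimage hf
    apply Set.Finite.isClosed_biUnion (Set.toFinite _)
    intro j hj
    exact hS j hj.1
  have hcov : Icc a b ⊆ (f ⁻¹' (c ⁻¹' {c (f a)})) ∪ (f ⁻¹' (⋃ j ∈ S \ {c (f a)}, c ⁻¹' {j})) := by
    intro φ hφ
    by_cases h : c (f φ) = c (f a)
    · left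
      exact h
    · right
      simp only [mem_preimage, mem_iUnion, exists_prop]
      exact ⟨c (f φ), ⟨hp φ hφ, h⟩, rfl⟩
  obtain ⟨φ, _, h1, h2⟩ := isPreconnected_closed_iff.1 isPreconnected_Icc _ _ hclosed hclosed' hcov
    ⟨a, ⟨le_rfl, hab⟩, rfl⟩
    ⟨b, ⟨hab, le_rfl⟩, by
      simp only [mem_preimage, mem_iUnion, exists_prop]
      exact ⟨c (f b), ⟨hp b ⟨hab, le_rfl⟩, fun h => hne (Eq.symm h)⟩, rfl⟩⟩
  simp only [mem_preimage, mem_iUnion, exists_prop] at h2
  obtain ⟨j, hj, hj'⟩ := h2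
  have e1 : c (f φ) = c (f a) := h1
  have e2 : c (f φ) = j := hj'
  exact hj.2 (e2.symm.trans e1)

lemma norm_u_sub_u_pi_div_three (θ : ℝ) : ‖u θ - u (θ + Real.pi / 3)‖ = 1 := by
  apply norm_eq_one_of_sq
  rw [sq_norm_eq, Complex.sub_re, Complex.sub_im, u_re, u_im, u_re, u_im, Real.cos_add,
    Real.sin_add, Real.cos_pi_div_three]
  have h1 := Real.cos_sq_add_sin_sq θ
  have h2 := Real.cos_sq_add_sin_sq (Real.pi / 3)
  rw [Real.cos_pi_div_three] at h2
  nlinarith

/-- Three distinct colours outside `S` do not exist if `S` has at least three elements. -/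
lemma two_outside {S : Set (Fin 5)} (hS3 : 3 ≤ S.ncard) {a b d : Fin 5} (ha : a ∉ S) (hb : b ∉ S)
    (hd : d ∉ S) (h1 : a ≠ d) (h2 : b ≠ d) : a = b := by
  classical
  by_contra hab
  have hsub : S ⊆ (({a, b, d} : Finset (Fin 5)) : Set (Fin 5))ᶜ := by
    intro x hx hx'
    simp only [Finset.coe_insert, Finset.coe_singleton, mem_insert_iff, mem_singleton_iff] at hx'
    rcases hx' with rfl | rfl | rfl
    · exact ha hx
    · exact hb hx
    · exact hd hx
  have hcard : (({a, b, d} : Finset (Fin 5)) : Set (Fin 5))ᶜ.ncard = 2 := by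
    rw [← Finset.coe_compl, Set.ncard_coe_finset, Finset.card_compl, Fintype.card_fin]
    have : ({a, b, d} : Finset (Fin 5)).card = 3 := by
      rw [Finset.card_eq_three]
      exact ⟨a, b, d, hab, h1, h2, rfl⟩
    rw [this]
  have := Set.ncard_le_ncard hsub (Set.toFinite _)
  omega

/-- The rigidity lemma: if at least three colours have closed classes, every other class is open. -/
lemma open_of_three_closed (hc : ∀ x y : ℂ, ‖x - y‖ = 1 → c x ≠ c y) {S : Set (Fin 5)}
    (hS : ∀ i ∈ S, IsClosed (c ⁻¹' {i})) (hS3 : 3 ≤ S.ncard) {i : Fin 5} (hi : i ∉ S) :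
    IsOpen (c ⁻¹' {i}) := by
  have hWo : IsOpen {x : ℂ | c x ∉ S} := by
    have : {x : ℂ | c x ∉ S} = ⋂ j ∈ S, (c ⁻¹' {j})ᶜ := by
      ext x
      simp only [Set.mem_ofPred_eq, mem_iInter, mem_compl_iff, mem_preimage, mem_singleton_iff]
      constructor
      · intro h j hj e
        exact h (e ▸ hj)
      · intro h hx
        exact h _ hx rfl
    rw [this]
    exact Set.Finite.isOpen_biInter (Set.toFinite S) (fun j hj => (hS j hj).isOpen_compl)
  rw [isOpen_iff_mem_nhds]
  intro z hz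
  have hzi : c z = i := hz
  have hzW : z ∈ {x : ℂ | c x ∉ S} := by
    show c z ∉ S
    rwa [hzi]
  -- a point of the circle outside the closed classes
  have hex : ∃ θ : ℝ, c (z + u θ) ∉ S := by
    by_contra hall
    push Not at hall
    have hcont : Continuous fun θ : ℝ => z + u θ := continuous_const.add continuous_u
    have := const_on_path hS hcont (a := 0) (b := Real.pi / 3) (by positivity)
      (fun φ _ => hall φ)
    refine hc (z + u 0) (z + u (Real.pi / 3)) ?_ this
    have e : z + u 0 - (z + u (Real.pi / 3)) = u 0 - u (0 + Real.pi / 3) := by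
      rw [zero_add]
      ring
    rw [e]
    exact norm_u_sub_u_pi_div_three 0
  obtain ⟨θ, hθ⟩ := hex
  have hwW : z + u θ ∈ {x : ℂ | c x ∉ S} := hθ
  obtain ⟨ρ₁, hρ₁, hb1⟩ := Metric.isOpen_iff.1 hWo z hzW
  obtain ⟨ρ₂, hρ₂, hb2⟩ := Metric.isOpen_iff.1 hWo (z + u θ) hwW
  let ρ := min ρ₁ ρ₂
  have hρ : 0 < ρ := lt_min hρ₁ hρ₂
  let κ := min (ρ / 2) 1
  have hκ : 0 < κ := lt_min (by linarith) one_pos
  have hκ1 : κ ≤ ρ / 2 := min_le_left _ _
  have hκ2 : κ ≤ 1 := min_le_right _ _
  have hsinκ : 0 < Real.sin κ := Real.sin_pos_of_pos_of_lt_pi hκ (by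
    have := Real.pi_gt_three
    linarith)
  let s := min (ρ / 2) (Real.sin κ)
  have hs : 0 < s := lt_min (by linarith) hsinκ
  have hs1 : s ≤ ρ / 2 := min_le_left _ _
  have hs2 : s ≤ Real.sin κ := min_le_right _ _
  -- the auxiliary point
  let z₃ : ℂ := z + (s : ℂ) * u (θ + Real.pi / 2)
  have hz₃d : ‖z₃ - z‖ = s := by
    have : z₃ - z = (s : ℂ) * u (θ + Real.pi / 2) := by simp only [z₃]; ring
    rw [this, norm_mul, norm_u, mul_one, Complex.norm_real, Real.norm_of_nonneg hs.le]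
  have hz₃W : c z₃ ∉ S := by
    apply hb1
    rw [mem_ball, dist_eq_norm, hz₃d]
    exact lt_of_le_of_lt hs1 (lt_of_lt_of_le (by linarith) (min_le_left ρ₁ ρ₂))
  have hsq : ∀ α : ℝ, ‖u α - (s : ℂ) * u (θ + Real.pi / 2)‖ ^ 2 - 1 =
      s * (s - 2 * Real.sin (α - θ)) := by
    intro α
    rw [sq_norm_eq, Complex.sub_re, Complex.sub_im, Complex.mul_re, Complex.mul_im,
      Complex.ofReal_re, Complex.ofReal_im, u_re, u_im, u_re, u_im, Real.cos_add_pi_div_two,
      Real.sin_add_pi_div_two, Real.sin_sub]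
    have h1 := Real.cos_sq_add_sin_sq α
    have h2 := Real.cos_sq_add_sin_sq θ
    have e : s * (s - 2 * (Real.sin α * Real.cos θ - Real.cos α * Real.sin θ)) =
        (Real.cos α ^ 2 + Real.sin α ^ 2) - 1 + s ^ 2 * (Real.cos θ ^ 2 + Real.sin θ ^ 2) +
        s * 2 * (Real.cos α * Real.sin θ - Real.sin α * Real.cos θ) := by
      rw [h1, h2]
      ring
    rw [e]
    ring
  -- the open neighbourhood on which the common neighbour exists
  let O : Set ℂ := {p | ‖p - z‖ < ρ / 2 ∧ 0 < ‖p + u (θ - κ) - z₃‖ ^ 2 - 1 ∧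
    ‖p + u (θ + κ) - z₃‖ ^ 2 - 1 < 0}
  have hOo : IsOpen O := by
    have h1 : IsOpen {p : ℂ | ‖p - z‖ < ρ / 2} := isOpen_lt (by fun_prop) continuous_const
    have h2 : IsOpen {p : ℂ | 0 < ‖p + u (θ - κ) - z₃‖ ^ 2 - 1} :=
      isOpen_lt continuous_const (by fun_prop)
    have h3 : IsOpen {p : ℂ | ‖p + u (θ + κ) - z₃‖ ^ 2 - 1 < 0} :=
      isOpen_lt (by fun_prop) continuous_const
    exact h1.inter (h2.inter h3)
  have hzO : z ∈ O := by
    refine ⟨by simp; linarith, ?_, ?_⟩
    · have e : z + u (θ - κ) - z₃ = u (θ - κ) - (s : ℂ) * u (θ + Real.pi / 2) := by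
        simp only [z₃]
        ring
      rw [e, hsq]
      have e2 : θ - κ - θ = -κ := by ring
      rw [e2, Real.sin_neg]
      apply mul_pos hs
      linarith
    · have e : z + u (θ + κ) - z₃ = u (θ + κ) - (s : ℂ) * u (θ + Real.pi / 2) := by
        simp only [z₃]
        ring
      rw [e, hsq]
      have e2 : θ + κ - θ = κ := by ring
      rw [e2]
      apply mul_neg_of_pos_of_neg hs
      linarith
  -- every point of O has the colour of the auxiliary point
  have hO3 : ∀ p ∈ O, c p = c z₃ := by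
    intro p hp
    obtain ⟨hp1, hp2, hp3⟩ := hp
    have hpW : c p ∉ S := by
      apply hb1
      rw [mem_ball, dist_eq_norm]
      exact lt_of_lt_of_le hp1 (by
        have := min_le_left ρ₁ ρ₂
        have h0 : ρ = min ρ₁ ρ₂ := rfl
        linarith)
    let f : ℝ → ℝ := fun α => ‖p + u α - z₃‖ ^ 2 - 1
    have hf : ContinuousOn f (Icc (θ - κ) (θ + κ)) := by
      have : Continuous f := by
        have := continuous_u
        fun_prop
      exact this.continuousOn
    obtain ⟨α, hα, hα0⟩ := intermediate_value_Icc' (by linarith : θ - κ ≤ θ + κ) hf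
      (show (0 : ℝ) ∈ Icc (f (θ + κ)) (f (θ - κ)) from ⟨hp3.le, hp2.le⟩)
    have hn3 : ‖p + u α - z₃‖ = 1 := by
      have h0 := norm_nonneg (p + u α - z₃)
      have : ‖p + u α - z₃‖ ^ 2 = 1 := by
        have : f α = ‖p + u α - z₃‖ ^ 2 - 1 := rfl
        linarith
      nlinarith
    have hap : ‖p + u α - z₃‖ = 1 := hn3
    have haW : c (p + u α) ∉ S := by
      apply hb2
      rw [mem_ball, dist_eq_norm]
      have e : p + u α - (z + u θ) = (p - z) + (u α - u θ) := by ring
      rw [e]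
      have h1 : ‖u α - u θ‖ ≤ |α - θ| := by
        have hq : u α - u θ = u θ * (u (α - θ) - 1) := by
          have : u α = u θ * u (α - θ) := by
            unfold u
            rw [← Complex.exp_add]
            congr 1
            push_cast
            ring
          rw [this]
          ring
        rw [hq, norm_mul, norm_u, one_mul]
        have := Real.norm_exp_I_mul_ofReal_sub_one_le (x := α - θ)
        simpa [u, mul_comm] using this
      have h2 : |α - θ| ≤ κ := by
        rw [abs_le]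
        constructor <;> linarith [hα.1, hα.2]
      have h3 := norm_add_le (p - z) (u α - u θ)
      have hρ2 : ρ ≤ ρ₂ := min_le_right _ _
      linarith
    have c1 : c p ≠ c (p + u α) := by
      apply hc
      have e : p - (p + u α) = - u α := by ring
      rw [e, norm_neg, norm_u]
    have c2 : c z₃ ≠ c (p + u α) := by
      apply hc
      rw [norm_sub_rev]
      exact hap
    exact two_outside hS3 hpW hz₃W haW c1 c2
  have hfin : O ⊆ c ⁻¹' {i} := by
    intro p hp
    show c p = i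
    rw [hO3 p hp, ← hO3 z hzO, hzi]
  exact Filter.mem_of_superset (hOo.mem_nhds hzO) hfin

lemma norm_u_sub_u_le (α θ : ℝ) : ‖u α - u θ‖ ≤ |α - θ| := by
  have hq : u α - u θ = u θ * (u (α - θ) - 1) := by
    have : u θ * u (α - θ) = u α := by
      unfold u
      rw [← Complex.exp_add]
      congr 1
      push_cast
      ring
    rw [mul_sub, this, mul_one]
  rw [hq, norm_mul, norm_u, one_mul]
  have := Real.norm_exp_I_mul_ofReal_sub_one_le (x := α - θ)
  simpa [u, mul_comm] using this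

lemma u_ne_of_small {α β : ℝ} (h1 : α < β) (h2 : β ≤ α + 1) : u β - u α ≠ 0 := by
  intro h
  have hsq : ‖u β - u α‖ ^ 2 = 2 - 2 * Real.cos (β - α) := by
    rw [sq_norm_eq, Complex.sub_re, Complex.sub_im, u_re, u_im, u_re, u_im, Real.cos_sub]
    have h1 := Real.cos_sq_add_sin_sq α
    have h2 := Real.cos_sq_add_sin_sq β
    nlinarith
  rw [h, norm_zero] at hsq
  have hcos : Real.cos (β - α) < Real.cos 0 := by
    apply Real.cos_lt_cos_of_nonneg_of_le_pi le_rfl
    · have := Real.pi_gt_three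
      linarith
    · linarith
  rw [Real.cos_zero] at hcos
  nlinarith

/-- Three closed classes are impossible for a proper colouring with five colours. -/
theorem three_closed_false (c : ℂ → Fin 5) (hc : ∀ x y : ℂ, ‖x - y‖ = 1 → c x ≠ c y)
    {S : Set (Fin 5)} (hS : ∀ i ∈ S, IsClosed (c ⁻¹' {i})) (hS3 : 3 ≤ S.ncard) : False := by
  classical
  let U : Fin 5 → Set ℂ := fun i => interior (c ⁻¹' {i})
  have hUo : ∀ i, IsOpen (U i) := fun i => isOpen_interior
  have hmemU : ∀ i, ∀ x ∈ U i, c x = i := by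
    intro i x hx
    have : x ∈ c ⁻¹' {i} := interior_subset hx
    exact this
  have hcopen : ∀ i, i ∉ S → ∀ x, c x = i → x ∈ U i := by
    intro i hi x hx
    have := open_of_three_closed hc hS hS3 hi
    show x ∈ interior (c ⁻¹' {i})
    rw [this.interior_eq]
    exact hx
  have hdense : Dense (⋃ i, U i) := by
    rw [dense_iff_inter_open]
    intro O hO hne
    by_contra hemp
    have hall : ∀ x ∈ O, c x ∈ S := by
      intro x hx
      by_contra hxS
      exact hemp ⟨x, hx, mem_iUnion.2 ⟨c x, hcopen _ hxS x rfl⟩⟩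
    obtain ⟨J', _, ⟨x, hx⟩, hJ'O, hav⟩ := avoid_finset (Finset.univ.filter fun i => i ∈ S)
      (fun i => c ⁻¹' {i})
      (fun i hi => hS i (by simpa using hi)) O hO hne (by
        intro i _ J' hJ' hJ'ne hJ'O hsub
        obtain ⟨x, hx⟩ := hJ'ne
        exact hemp ⟨x, hJ'O hx, mem_iUnion.2 ⟨i, mem_interior.2 ⟨J', hsub, hJ', hx⟩⟩⟩)
    exact hav (c x) (by simpa using hall x (hJ'O hx)) x hx rfl
  have h1 : ∀ i, ∀ x ∈ U i, ∀ y ∈ U i, ‖x - y‖ ≠ 1 := by
    intro i x hx y hy hxy
    exact hc x y hxy ((hmemU i x hx).trans (hmemU i y hy).symm)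
  obtain ⟨i, j, hij, z, hzi, hzj, θ₁, θ₂, hθ, harc⟩ := open_double_arc U hUo hdense h1
  have hclosedcase : ∀ a, a ∈ S → z ∈ closure (U a) → z + u θ₁ ∈ closure (U a) → False := by
    intro a ha h1' h2'
    have hsub : closure (U a) ⊆ c ⁻¹' {a} := closure_minimal interior_subset (hS a ha)
    have e1 : c z = a := hsub h1'
    have e2 : c (z + u θ₁) = a := hsub h2'
    refine hc z (z + u θ₁) ?_ (e1.trans e2.symm)
    have : z - (z + u θ₁) = - u θ₁ := by ring
    rw [this, norm_neg, norm_u]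
  have hiS : i ∉ S := fun h =>
    hclosedcase i h hzi (harc θ₁ ⟨le_rfl, hθ.le⟩).1
  have hjS : j ∉ S := fun h =>
    hclosedcase j h hzj (harc θ₁ ⟨le_rfl, hθ.le⟩).2
  have hreg := regCover_of_open U hUo hdense h1
  -- shrink the arc
  let θ₃ := min θ₂ (θ₁ + 1)
  have hθ₃1 : θ₁ < θ₃ := lt_min hθ (by linarith)
  have hθ₃2 : θ₃ ≤ θ₂ := min_le_left _ _
  have hθ₃3 : θ₃ ≤ θ₁ + 1 := min_le_right _ _
  have harc' : ∀ ψ ∈ Icc θ₁ θ₃, z + u ψ ∈ closure (U i) ∧ z + u ψ ∈ closure (U j) :=
    fun ψ hψ => harc ψ ⟨hψ.1, hψ.2.trans hθ₃2⟩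
  -- the midpoint construction
  let v : ℂ := (u θ₃ - u θ₁) / 2
  have hv0 : ‖u θ₃ - u θ₁‖ ≠ 0 := norm_ne_zero_iff.2 (u_ne_of_small hθ₃1 hθ₃3)
  let h : ℝ := ‖v‖
  have hheq : h = ‖u θ₃ - u θ₁‖ / 2 := by
    simp only [h, v, norm_div]
    norm_num
  have hhpos : 0 < h := by
    rw [hheq]
    have := norm_nonneg (u θ₃ - u θ₁)
    positivity
  have hhle : h ≤ 1 / 2 := by
    rw [hheq]
    have h3 := norm_u_sub_u_le θ₃ θ₁
    rw [abs_of_pos (by linarith)] at h3
    linarith
  let w : ℂ := v / (h : ℂ)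
  have hhc : (h : ℂ) ≠ 0 := by exact_mod_cast hhpos.ne'
  have hvw : v = (h : ℂ) * w := by
    simp only [w]
    field_simp
  have hwn : ‖w‖ = 1 := by
    simp only [w, norm_div, Complex.norm_real, Real.norm_of_nonneg hhpos.le]
    exact div_self hhpos.ne'
  let m : ℂ := z + (u θ₁ + u θ₃) / 2
  let y : ℝ → ℂ := fun φ => m - w * u φ
  have hy1 : ∀ φ, ‖y φ - (z + u θ₁)‖ ^ 2 - 1 = h * (h - 2 * Real.cos φ) := by
    intro φ
    have e : y φ - (z + u θ₁) = w * ((h : ℂ) - u φ) := by
      have : y φ - (z + u θ₁) = v - w * u φ := by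
        simp only [y, m, v]
        ring
      rw [this, hvw]
      ring
    rw [e, norm_mul, hwn, one_mul, sq_norm_eq, Complex.sub_re, Complex.sub_im, Complex.ofReal_re,
      Complex.ofReal_im, u_re, u_im]
    have := Real.cos_sq_add_sin_sq φ
    nlinarith
  have hy2 : ∀ φ, ‖y φ - (z + u θ₃)‖ ^ 2 - 1 = h * (h + 2 * Real.cos φ) := by
    intro φ
    have e : y φ - (z + u θ₃) = - w * ((h : ℂ) + u φ) := by
      have : y φ - (z + u θ₃) = - v - w * u φ := by
        simp only [y, m, v]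
        ring
      rw [this, hvw]
      ring
    rw [e, norm_mul, norm_neg, hwn, one_mul, sq_norm_eq, Complex.add_re, Complex.add_im,
      Complex.ofReal_re, Complex.ofReal_im, u_re, u_im]
    have := Real.cos_sq_add_sin_sq φ
    nlinarith
  have hcos : ∀ φ ∈ Icc (-(Real.pi / 6)) (Real.pi / 6), 1 / 2 ≤ Real.cos φ := by
    intro φ hφ
    rw [← Real.cos_abs, ← Real.cos_pi_div_three]
    have hpi := Real.pi_pos
    apply Real.cos_le_cos_of_nonneg_of_le_pi (abs_nonneg _) (by linarith)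
    rw [abs_le]
    constructor <;> linarith [hφ.1, hφ.2]
  have hsign : ∀ φ ∈ Icc (-(Real.pi / 6)) (Real.pi / 6),
      (‖y φ - (z + u θ₁)‖ ^ 2 - 1) * (‖y φ - (z + u θ₃)‖ ^ 2 - 1) < 0 := by
    intro φ hφ
    rw [hy1, hy2]
    have hc1 := hcos φ hφ
    apply mul_neg_of_neg_of_pos
    · apply mul_neg_of_pos_of_neg hhpos
      linarith
    · apply mul_pos hhpos
      linarith
  have hyS : ∀ φ ∈ Icc (-(Real.pi / 6)) (Real.pi / 6), c (y φ) ∈ S := by
    intro φ hφ
    by_contra hyφ
    have n1 : i ≠ c (y φ) := by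
      intro e
      have hmem : y φ ∈ closure (U i) := subset_closure (hcopen i hiS _ e.symm)
      exact cross_core hreg hmem hθ₃1.le (fun ψ hψ => (harc' ψ hψ).1) (hsign φ hφ)
    have n2 : j ≠ c (y φ) := by
      intro e
      have hmem : y φ ∈ closure (U j) := subset_closure (hcopen j hjS _ e.symm)
      exact cross_core hreg hmem hθ₃1.le (fun ψ hψ => (harc' ψ hψ).2) (hsign φ hφ)
    exact hij (two_outside hS3 hiS hjS hyφ n1 n2)
  have hycont : Continuous y := continuous_const.sub (continuous_const.mul continuous_u)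
  have hpi := Real.pi_pos
  have hconst := const_on_path hS hycont (a := -(Real.pi / 6)) (b := Real.pi / 6)
    (by linarith) hyS
  refine hc (y (-(Real.pi / 6))) (y (Real.pi / 6)) ?_ hconst
  have e : y (-(Real.pi / 6)) - y (Real.pi / 6) =
      w * (u (Real.pi / 6) - u (-(Real.pi / 6))) := by
    simp only [y]
    ring
  rw [e, norm_mul, hwn, one_mul, norm_sub_rev]
  have := norm_u_sub_u_pi_div_three (-(Real.pi / 6))
  have e2 : -(Real.pi / 6) + Real.pi / 3 = Real.pi / 6 := by ring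
  rwa [e2] at this

/-- At most two classes of a proper colouring of the Euclidean plane with five colours
are closed. -/
theorem plane_two_closed (c : Plane → Fin 5) (hc : ∀ x y, dist x y = 1 → c x ≠ c y) :
    {i : Fin 5 | IsClosed (c ⁻¹' {i})}.ncard ≤ 2 := by
  by_contra hcon
  have hS3 : 3 ≤ {i : Fin 5 | IsClosed (c ⁻¹' {i})}.ncard := by omega
  refine three_closed_false (fun z => c (toPlane z)) ?_ (S := {i : Fin 5 | IsClosed (c ⁻¹' {i})}) ?_
    hS3
  · intro x y hxy
    apply hc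
    rw [toPlane.dist_map, dist_eq_norm]
    exact hxy
  · intro i hi
    exact IsClosed.preimage toPlane.continuous hi

end

end Vale.Agent.Lib.P032
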