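import Mathlib
import Vale.Agent.Lib.P032.Transfer

/-!
Recolouring by small balls: a point `z` of a piece with `S(z)` disjoint from this piece may give a
whole small ball around `z` to this piece.  This shows that some double contact centre has all of
its colours again on its unit circle.
-/

open Metric Set Topology

namespace Vale.Agent.Lib.P032

/-- The radius at level `n`. -/
noncomputable def rad (n : ℕ) : ℝ := (1 / 2) ^ (n + 2)

lemma rad_pos (n : ℕ) : 0 < rad n := by
  unfold rad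
  positivity

lemma rad_lt_one (n : ℕ) : rad n < 1 := by
  unfold rad
  exact pow_lt_one₀ (by norm_num) (by norm_num) (by omega)

/-- Index of a grid ball with a colour. -/
abbrev Idx := ℕ × ℤ × ℤ × Fin 5

/-- The centre of a grid ball. -/
noncomputable def ctr (α : Idx) : ℂ := ⟨α.2.1 * (rad α.1 / 2), α.2.2.1 * (rad α.1 / 2)⟩

/-- The grid ball. -/
noncomputable def ballOf (α : Idx) : Set ℂ := ball (ctr α) (rad α.1)

/-- The colour of an index. -/
def colOf (α : Idx) : Fin 5 := α.2.2.2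

/-- The priority of an index. -/
def enc (α : Idx) : ℕ := Encodable.encode α

lemma enc_inj {α β : Idx} (h : enc α = enc β) : α = β := Encodable.encode_injective h

lemma finite_enc_lt (n : ℕ) : {β : Idx | enc β < n}.Finite := by
  have : {β : Idx | enc β < n} = enc ⁻¹' (Iio n) := rfl
  rw [this]
  exact (Set.finite_Iio n).preimage (fun a _ b _ h => enc_inj h)

section

variable (A : Fin 5 → Set ℂ)

/-- A grid ball is admissible if it contains a point of its colour whose unit circle is far from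
the piece of this colour. -/
def Adm (α : Idx) : Prop :=
  ∃ z, z ∈ A (colOf α) ∧ z ∈ ballOf α ∧ ∀ y ∈ A (colOf α), 6 * rad α.1 ≤ |‖y - z‖ - 1|

/-- The part of a grid ball which is not overruled by a ball of higher priority. -/
def Dset (α : Idx) : Set ℂ :=
  {x | Adm A α ∧ x ∈ ballOf α ∧ ∀ β, enc β < enc α → Adm A β → x ∉ closure (ballOf β)}

/-- The new piece of colour `k`. -/
def newU (k : Fin 5) : Set ℂ := ⋃ α : {α : Idx // colOf α = k}, Dset A α.1

end

variable {A : Fin 5 → Set ℂ}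

lemma isOpen_Dset (α : Idx) : IsOpen (Dset A α) := by
  by_cases h : Adm A α
  · have e : Dset A α = ballOf α ∩
        ⋂ β ∈ {β : Idx | enc β < enc α ∧ Adm A β}, (closure (ballOf β))ᶜ := by
      ext x
      simp only [Dset, mem_ofPred_eq, mem_inter_iff, mem_iInter, mem_compl_iff, and_imp]
      constructor
      · rintro ⟨_, h2, h3⟩
        exact ⟨h2, fun β hb hc => h3 β hb hc⟩
      · rintro ⟨h2, h3⟩
        exact ⟨h, h2, fun β hb hc => h3 β hb hc⟩
    rw [e]
    refine isOpen_ball.inter (Set.Finite.isOpen_biInter ?_ fun _ _ => isClosed_closure.isOpen_compl)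
    exact (finite_enc_lt (enc α)).subset fun β hβ => hβ.1
  · have e : Dset A α = ∅ := by
      ext x
      simp only [Dset, mem_ofPred_eq, mem_empty_iff_false, iff_false]
      rintro ⟨h1, _⟩
      exact h h1
    rw [e]
    exact isOpen_empty

lemma Dset_eq {α β : Idx} {x : ℂ} (h1 : x ∈ Dset A α) (h2 : x ∈ Dset A β) : α = β := by
  rcases lt_trichotomy (enc α) (enc β) with h | h | h
  · exact (h2.2.2 α h h1.1 (subset_closure h1.2.1)).elim
  · exact enc_inj h
  · exact (h1.2.2 β h h2.1 (subset_closure h2.2.1)).elim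

lemma mem_newU {k : Fin 5} {x : ℂ} : x ∈ newU A k ↔ ∃ α, colOf α = k ∧ x ∈ Dset A α := by
  simp only [newU, mem_iUnion, Subtype.exists, exists_prop]

lemma isOpen_newU (k : Fin 5) : IsOpen (newU A k) :=
  isOpen_iUnion fun α => isOpen_Dset α.1

/-- A point of a piece whose circle avoids the piece has a positive margin. -/
lemma pos_margin (hA : ∀ k, IsClosed (A k)) {k : Fin 5} {z : ℂ} (h : ∀ y ∈ A k, ‖y - z‖ ≠ 1) :
    ∃ m > 0, ∀ y ∈ A k, m ≤ |‖y - z‖ - 1| := by
  have hK : IsCompact (A k ∩ closedBall z 2) := (isCompact_closedBall z 2).inter_left (hA k)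
  have hcont : ContinuousOn (fun y : ℂ => |‖y - z‖ - 1|) (A k ∩ closedBall z 2) := by fun_prop
  obtain ⟨m, hm, hmb⟩ := hK.exists_forall_le' hcont (a := 0) (by
    intro y hy
    exact abs_pos.2 (sub_ne_zero.2 (h y hy.1)))
  refine ⟨min m 1, lt_min hm one_pos, ?_⟩
  intro y hy
  by_cases hyb : y ∈ closedBall z 2
  · exact (min_le_left _ _).trans (hmb y ⟨hy, hyb⟩)
  · refine (min_le_right _ _).trans ?_
    have : 2 < ‖y - z‖ := by
      rw [mem_closedBall, dist_eq_norm, not_le] at hyb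
      exact hyb
    rw [abs_of_pos (by linarith)]
    linarith

/-- Every point with a positive margin lies in an admissible ball. -/
lemma exists_adm (k : Fin 5) {z : ℂ} (hz : z ∈ A k) {m : ℝ} (hm : 0 < m)
    (hb : ∀ y ∈ A k, m ≤ |‖y - z‖ - 1|) : ∃ α, colOf α = k ∧ Adm A α ∧ z ∈ ballOf α := by
  obtain ⟨n, hn⟩ := exists_pow_lt_of_lt_one (show 0 < m / 6 by positivity)
    (show (1 / 2 : ℝ) < 1 by norm_num)
  have hrn : 6 * rad n ≤ m := by
    have h1 : rad n ≤ (1 / 2) ^ n := by
      unfold rad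
      exact pow_le_pow_of_le_one (by norm_num) (by norm_num) (by omega)
    linarith
  have hr := rad_pos n
  let g := rad n / 2
  have hg : 0 < g := by positivity
  let a := round (z.re / g)
  let b := round (z.im / g)
  let α : Idx := (n, a, b, k)
  have hzb : z ∈ ballOf α := by
    show z ∈ ball (ctr α) (rad n)
    rw [mem_ball, dist_eq_norm]
    have h1 : |z.re - a * g| ≤ g / 2 := by
      have := abs_sub_round (z.re / g)
      have e : z.re - a * g = (z.re / g - a) * g := by
        field_simp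
      rw [e, abs_mul, abs_of_pos hg]
      exact mul_le_mul_of_nonneg_right this hg.le |>.trans (by linarith)
    have h2 : |z.im - b * g| ≤ g / 2 := by
      have := abs_sub_round (z.im / g)
      have e : z.im - b * g = (z.im / g - b) * g := by
        field_simp
      rw [e, abs_mul, abs_of_pos hg]
      exact mul_le_mul_of_nonneg_right this hg.le |>.trans (by linarith)
    refine lt_of_le_of_lt (Complex.norm_le_abs_re_add_abs_im _) ?_
    have e1 : (z - ctr α).re = z.re - a * g := rfl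
    have e2 : (z - ctr α).im = z.im - b * g := rfl
    rw [e1, e2]
    have : g = rad n / 2 := rfl
    linarith
  refine ⟨α, rfl, ⟨z, hz, hzb, fun y hy => hrn.trans (hb y hy)⟩, hzb⟩

lemma dist_in_ball {α : Idx} {x y : ℂ} (hx : x ∈ ballOf α) (hy : y ∈ ballOf α) :
    ‖x - y‖ < 2 * rad α.1 := by
  have h1 : ‖x - ctr α‖ < rad α.1 := by
    have : x ∈ ball (ctr α) (rad α.1) := hx
    rwa [mem_ball, dist_eq_norm] at this
  have h2 : ‖y - ctr α‖ < rad α.1 := by
    have : y ∈ ball (ctr α) (rad α.1) := hy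
    rwa [mem_ball, dist_eq_norm] at this
  have e : x - y = (x - ctr α) - (y - ctr α) := by ring
  rw [e]
  exact lt_of_le_of_lt (norm_sub_le _ _) (by linarith)

/-- The new pieces have no unit pairs. -/
lemma newU_no_unit {k : Fin 5} {t t' : ℂ} (ht : t ∈ newU A k) (ht' : t' ∈ newU A k) :
    ‖t - t'‖ ≠ 1 := by
  intro h1
  obtain ⟨α, hα, hα'⟩ := mem_newU.1 ht
  obtain ⟨β, hβ, hβ'⟩ := mem_newU.1 ht'
  obtain ⟨z, hz, hzb, hzm⟩ := hα'.1
  obtain ⟨z', hz', hzb', hzm'⟩ := hβ'.1
  have hzA : z ∈ A (colOf β) := hβ ▸ hα ▸ hz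
  have hzA' : z' ∈ A (colOf α) := hα ▸ hβ ▸ hz'
  have h2 := hzm z' hzA'
  have h3 := hzm' z hzA
  have d1 := dist_in_ball hα'.2.1 hzb
  have d2 := dist_in_ball hβ'.2.1 hzb'
  have hX : |‖z - z'‖ - 1| ≤ ‖t - z‖ + ‖t' - z'‖ := by
    rw [← h1]
    have e2 := abs_norm_sub_norm_le (z - z') (t - t')
    have e3 : (z - z') - (t - t') = -((t - z) - (t' - z')) := by ring
    rw [e3, norm_neg] at e2
    exact e2.trans (norm_sub_le _ _)
  have hs : ‖z' - z‖ = ‖z - z'‖ := norm_sub_rev _ _
  rw [hs] at h2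
  have r1 := rad_pos α.1
  have r2 := rad_pos β.1
  linarith

/-- The new pieces have dense union. -/
lemma newU_dense (hA : RegCover A) : Dense (⋃ k, newU A k) := by
  classical
  rw [dense_iff_inter_open]
  intro O hO hne
  obtain ⟨x₀, hx₀⟩ := hne
  obtain ⟨l, hl⟩ := hA.cover x₀
  obtain ⟨x, hxO, hxI⟩ := _root_.mem_closure_iff.1 (hA.reg l hl) O hO hx₀
  obtain ⟨m, hm, hmb⟩ := pos_margin hA.closed (k := l) (z := x) (fun y hy h =>
    hA.noUnit l x hxI y hy (by rwa [norm_sub_rev]))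
  obtain ⟨α, _, hαA, hαb⟩ := exists_adm l (interior_subset hxI) hm hmb
  have hP : ∃ n, ∃ α : Idx, enc α = n ∧ Adm A α ∧ (O ∩ ballOf α).Nonempty :=
    ⟨enc α, α, rfl, hαA, x, hxO, hαb⟩
  obtain ⟨γ, hγ1, hγ2, y, hyO, hyb⟩ := Nat.find_spec hP
  have hmin : ∀ β, enc β < enc γ → Adm A β → (O ∩ ballOf β) = ∅ := by
    intro β hβ hβA
    by_contra hne'
    have : enc β < Nat.find hP := by rw [← hγ1]; exact hβ
    exact Nat.find_min hP this ⟨β, rfl, hβA, nonempty_iff_ne_empty.2 hne'⟩
  refine ⟨y, hyO, mem_iUnion.2 ⟨colOf γ, mem_newU.2 ⟨γ, rfl, hγ2, hyb, ?_⟩⟩⟩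
  intro β hβ hβA hyc
  obtain ⟨w, hwO, hwb⟩ := _root_.mem_closure_iff.1 hyc O hO hyO
  have : w ∈ O ∩ ballOf β := ⟨hwO, hwb⟩
  rw [hmin β hβ hβA] at this
  exact this

lemma int_mem_Icc {a : ℤ} {X : ℝ} (h : |(a : ℝ)| ≤ X) : a ∈ Icc (-⌈X⌉) ⌈X⌉ := by
  have h1 := abs_le.1 h
  have h2 := Int.le_ceil X
  constructor
  · have : (-(⌈X⌉ : ℝ)) ≤ a := by linarith [h1.1]
    exact_mod_cast this
  · have : (a : ℝ) ≤ ⌈X⌉ := by linarith [h1.2]
    exact_mod_cast this

/-- Only finitely many admissible balls of a colour meet a small ball around a point outside this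
colour. -/
lemma finite_near {i : Fin 5} {p : ℂ} {d : ℝ} (hd : 0 < d) (hp : ∀ y ∈ A i, d ≤ ‖y - p‖) :
    {α : Idx | colOf α = i ∧ Adm A α ∧ ∃ q ∈ ballOf α, ‖q - p‖ < d / 2}.Finite := by
  obtain ⟨N, hN⟩ := exists_pow_lt_of_lt_one (show 0 < d / 4 by positivity)
    (show (1 / 2 : ℝ) < 1 by norm_num)
  let X : ℝ := (|p.re| + |p.im| + 1 + d) * (8 / d)
  have hsub : {α : Idx | colOf α = i ∧ Adm A α ∧ ∃ q ∈ ballOf α, ‖q - p‖ < d / 2} ⊆
      (Iio N) ×ˢ ((Icc (-⌈X⌉) ⌈X⌉) ×ˢ ((Icc (-⌈X⌉) ⌈X⌉) ×ˢ (univ : Set (Fin 5)))) := by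
    rintro ⟨n, a, b, k⟩ ⟨hk, ⟨z, hzA, hzb, _⟩, q, hqb, hq⟩
    have hzA' : z ∈ A i := hk ▸ hzA
    have h1 := hp z hzA'
    have h2 : ‖z - q‖ < 2 * rad n := dist_in_ball (α := (n, a, b, k)) hzb hqb
    have h3 : ‖z - p‖ ≤ ‖z - q‖ + ‖q - p‖ := by
      have e : z - p = (z - q) + (q - p) := by ring
      rw [e]
      exact norm_add_le _ _
    have hr : d / 4 < rad n := by linarith
    have hr1 := rad_lt_one n
    have hnN : n < N := by
      by_contra hcon
      push Not at hcon
      have : rad n ≤ (1 / 2) ^ N := by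
        unfold rad
        exact pow_le_pow_of_le_one (by norm_num) (by norm_num) (by omega)
      linarith
    have hqc : ‖q - ctr (n, a, b, k)‖ < rad n := by
      have : q ∈ ball (ctr (n, a, b, k)) (rad n) := hqb
      rwa [mem_ball, dist_eq_norm] at this
    have hcp : ‖ctr (n, a, b, k) - p‖ < rad n + d / 2 := by
      have e : ctr (n, a, b, k) - p = -(q - ctr (n, a, b, k)) + (q - p) := by ring
      rw [e]
      refine lt_of_le_of_lt (norm_add_le _ _) ?_
      rw [norm_neg]
      linarith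
    have hrpos := rad_pos n
    have hscale : 8 / d ≥ 2 / rad n := by
      rw [ge_iff_le, div_le_div_iff₀ hrpos hd]
      linarith
    have hXpos : 0 ≤ |p.re| + |p.im| + 1 + d := by positivity
    have hre : |(a : ℝ)| ≤ X := by
      have h4 : |((a : ℝ) * (rad n / 2)) - p.re| ≤ ‖ctr (n, a, b, k) - p‖ :=
        Complex.abs_re_le_norm (ctr (n, a, b, k) - p)
      have h5 : |(a : ℝ)| * (rad n / 2) ≤ |p.re| + |p.im| + 1 + d := by
        have h6 : |(a : ℝ) * (rad n / 2)| ≤ |(a : ℝ) * (rad n / 2) - p.re| + |p.re| := by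
          have := abs_add_le ((a : ℝ) * (rad n / 2) - p.re) p.re
          simpa using this
        rw [abs_mul, abs_of_pos (by positivity : 0 < rad n / 2)] at h6
        have := abs_nonneg p.im
        linarith
      have h7 : |(a : ℝ)| = (|(a : ℝ)| * (rad n / 2)) * (2 / rad n) := by
        field_simp
      rw [h7]
      exact mul_le_mul h5 hscale (by positivity) hXpos
    have him : |(b : ℝ)| ≤ X := by
      have h4 : |((b : ℝ) * (rad n / 2)) - p.im| ≤ ‖ctr (n, a, b, k) - p‖ :=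
        Complex.abs_im_le_norm (ctr (n, a, b, k) - p)
      have h5 : |(b : ℝ)| * (rad n / 2) ≤ |p.re| + |p.im| + 1 + d := by
        have h6 : |(b : ℝ) * (rad n / 2)| ≤ |(b : ℝ) * (rad n / 2) - p.im| + |p.im| := by
          have := abs_add_le ((b : ℝ) * (rad n / 2) - p.im) p.im
          simpa using this
        rw [abs_mul, abs_of_pos (by positivity : 0 < rad n / 2)] at h6
        have := abs_nonneg p.re
        linarith
      have h7 : |(b : ℝ)| = (|(b : ℝ)| * (rad n / 2)) * (2 / rad n) := by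
        field_simp
      rw [h7]
      exact mul_le_mul h5 hscale (by positivity) hXpos
    exact ⟨hnN, int_mem_Icc hre, int_mem_Icc him, mem_univ _⟩
  exact ((Set.finite_Iio N).prod ((Set.finite_Icc _ _).prod
    ((Set.finite_Icc _ _).prod Set.finite_univ))).subset hsub

/-- A point of the closure of a new piece lies in the old piece or in the closure of an admissible
ball of this colour. -/
lemma mem_of_closure_newU (hA : RegCover A) {i : Fin 5} {p : ℂ} (hp : p ∈ closure (newU A i)) :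
    p ∈ A i ∨ ∃ α, colOf α = i ∧ Adm A α ∧ p ∈ closure (ballOf α) := by
  by_contra hcon
  push Not at hcon
  obtain ⟨hpA, hpb⟩ := hcon
  obtain ⟨d, hd, hball⟩ := Metric.isOpen_iff.1 (hA.closed i).isOpen_compl p hpA
  have hdA : ∀ y ∈ A i, d ≤ ‖y - p‖ := by
    intro y hy
    by_contra hlt
    push Not at hlt
    exact hball (by rwa [mem_ball, dist_eq_norm]) hy
  have hfin := finite_near hd hdA
  let F := {α : Idx | colOf α = i ∧ Adm A α ∧ ∃ q ∈ ballOf α, ‖q - p‖ < d / 2}
  have hWo : IsOpen (ball p (d / 2) ∩ ⋂ α ∈ F, (closure (ballOf α))ᶜ) :=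
    isOpen_ball.inter (Set.Finite.isOpen_biInter hfin fun _ _ => isClosed_closure.isOpen_compl)
  have hpW : p ∈ ball p (d / 2) ∩ ⋂ α ∈ F, (closure (ballOf α))ᶜ := by
    refine ⟨mem_ball_self (by positivity), ?_⟩
    simp only [mem_iInter]
    intro α hα
    exact hpb α hα.1 hα.2.1
  obtain ⟨q, hqW, hqU⟩ := _root_.mem_closure_iff.1 hp _ hWo hpW
  obtain ⟨α, hα, hαD⟩ := mem_newU.1 hqU
  have hαF : α ∈ F := ⟨hα, hαD.1, q, hαD.2.1, by
    have := hqW.1
    rwa [mem_ball, dist_eq_norm] at this⟩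
  have := hqW.2
  simp only [mem_iInter] at this
  exact this α hαF (subset_closure hαD.2.1)

/-- Inside an admissible ball, only balls of higher priority contribute to the other colours. -/
lemma near_ball {α : Idx} (hα : Adm A α) {z : ℂ} (hz : z ∈ ballOf α) {i : Fin 5}
    (hi : colOf α ≠ i) (hc : z ∈ closure (newU A i)) :
    ∃ β, enc β < enc α ∧ Adm A β ∧ colOf β = i ∧ z ∈ closure (ballOf β) := by
  by_contra hcon
  push Not at hcon
  let F := {β : Idx | enc β < enc α ∧ Adm A β ∧ colOf β = i}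
  have hfin : F.Finite := (finite_enc_lt (enc α)).subset fun β hβ => hβ.1
  have hWo : IsOpen (ballOf α ∩ ⋂ β ∈ F, (closure (ballOf β))ᶜ) :=
    isOpen_ball.inter (Set.Finite.isOpen_biInter hfin fun _ _ => isClosed_closure.isOpen_compl)
  have hzW : z ∈ ballOf α ∩ ⋂ β ∈ F, (closure (ballOf β))ᶜ := by
    refine ⟨hz, ?_⟩
    simp only [mem_iInter]
    intro β hβ
    exact hcon β hβ.1 hβ.2.1 hβ.2.2
  obtain ⟨q, hqW, hqU⟩ := _root_.mem_closure_iff.1 hc _ hWo hzW
  obtain ⟨β, hβ, hβD⟩ := mem_newU.1 hqU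
  rcases lt_trichotomy (enc β) (enc α) with h | h | h
  · have := hqW.2
    simp only [mem_iInter] at this
    exact this β ⟨h, hβD.1, hβ⟩ (subset_closure hβD.2.1)
  · have := enc_inj h
    rw [this] at hβ
    exact hi hβ
  · exact hβD.2.2 α h hα (subset_closure hqW.1)

/-- An admissible ball of colour `k` has no point at unit distance from a point of the piece `k` in
its closure. -/
lemma not_closure_of_unit {α : Idx} (hα : Adm A α) {y z : ℂ} (hy : y ∈ A (colOf α))
    (hyz : ‖y - z‖ = 1) : z ∉ closure (ballOf α) := by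
  intro hzc
  obtain ⟨w, _, hwb, hwm⟩ := hα
  have h1 := hwm y hy
  have hr := rad_pos α.1
  have hzc' : z ∈ closedBall (ctr α) (rad α.1) := by
    have : closure (ballOf α) = closedBall (ctr α) (rad α.1) :=
      closure_ball _ hr.ne'
    rwa [this] at hzc
  have h2 : ‖z - ctr α‖ ≤ rad α.1 := by
    rwa [mem_closedBall, dist_eq_norm] at hzc'
  have h3 : ‖w - ctr α‖ < rad α.1 := by
    have : w ∈ ball (ctr α) (rad α.1) := hwb
    rwa [mem_ball, dist_eq_norm] at this
  have h4 : |‖y - w‖ - 1| ≤ ‖z - ctr α‖ + ‖w - ctr α‖ := by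
    rw [← hyz]
    have e2 := abs_norm_sub_norm_le (y - w) (y - z)
    have e3 : (y - w) - (y - z) = (z - ctr α) - (w - ctr α) := by ring
    rw [e3] at e2
    exact e2.trans (norm_sub_le _ _)
  linarith

/-- A function of the form `‖w + u θ‖` is not constant equal to `r ≠ 1` on an open set of angles. -/
lemma dense_ne_norm (w : ℂ) {r : ℝ} (hr : r ≠ 1) (hr0 : 0 ≤ r) : Dense {θ : ℝ | ‖w + u θ‖ ≠ r} := by
  rw [dense_iff_inter_open]
  intro J hJ hne
  by_contra hcon
  have hall : ∀ θ ∈ J, ‖w + u θ‖ = r := by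
    intro θ hθ
    by_contra h
    exact hcon ⟨θ, hθ, h⟩
  obtain ⟨θ₀, hθ₀⟩ := hne
  obtain ⟨ε, hε, hb⟩ := Metric.isOpen_iff.1 hJ θ₀ hθ₀
  let h := min (ε / 2) 1
  have hh : 0 < h := lt_min (by linarith) one_pos
  have hh1 : h ≤ ε / 2 := min_le_left _ _
  have hh2 : h ≤ 1 := min_le_right _ _
  have m0 : θ₀ ∈ J := hθ₀
  have m1 : θ₀ + h ∈ J := hb (by rw [mem_ball, Real.dist_eq]; simp; rw [abs_of_pos hh]; linarith)
  have m2 : θ₀ - h ∈ J := hb (by rw [mem_ball, Real.dist_eq]; simp; rw [abs_of_pos hh]; linarith)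
  have hsq : ∀ θ ∈ J, w.re * Real.cos θ + w.im * Real.sin θ = (r ^ 2 - (w.re ^ 2 + w.im ^ 2) - 1) / 2 := by
    intro θ hθ
    have h1 : ‖w + u θ‖ ^ 2 = r ^ 2 := by rw [hall θ hθ]
    rw [sq_norm_eq, Complex.add_re, Complex.add_im, u_re, u_im] at h1
    have h2 := Real.cos_sq_add_sin_sq θ
    nlinarith
  set C := (r ^ 2 - (w.re ^ 2 + w.im ^ 2) - 1) / 2 with hC
  have e0 := hsq θ₀ m0
  have e1 := hsq _ m1
  have e2 := hsq _ m2
  rw [Real.cos_add, Real.sin_add] at e1
  rw [Real.cos_sub, Real.sin_sub] at e2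
  have hcos : Real.cos h < 1 := by
    have : Real.cos h < Real.cos 0 := by
      apply Real.cos_lt_cos_of_nonneg_of_le_pi le_rfl
      · have := Real.pi_gt_three
        linarith
      · exact hh
    rwa [Real.cos_zero] at this
  have hsin : 0 < Real.sin h := Real.sin_pos_of_pos_of_lt_pi hh (by
    have := Real.pi_gt_three
    linarith)
  set a := w.re * Real.cos θ₀ + w.im * Real.sin θ₀ with ha
  set b := - w.re * Real.sin θ₀ + w.im * Real.cos θ₀ with hb'
  have e1' : a * Real.cos h + b * Real.sin h = C := by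
    rw [← e1, ha, hb']
    ring
  have e2' : a * Real.cos h - b * Real.sin h = C := by
    rw [← e2, ha, hb']
    ring
  have hb0 : b = 0 := by
    have : b * Real.sin h = 0 := by linarith
    exact (mul_eq_zero.1 this).resolve_right hsin.ne'
  have hC0 : C = 0 := by
    have h1 : C * Real.cos h = C := by
      rw [hb0] at e1'
      rw [← e0] at e1'
      nlinarith
    have h2 : C * (1 - Real.cos h) = 0 := by linarith
    exact (mul_eq_zero.1 h2).resolve_right (by linarith)
  have ha0 : a = 0 := by rw [← e0] at hC0; exact hC0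
  have hw1 : w.re = 0 := by
    have h5 := Real.cos_sq_add_sin_sq θ₀
    have e : a * Real.cos θ₀ - b * Real.sin θ₀ = w.re * (Real.cos θ₀ ^ 2 + Real.sin θ₀ ^ 2) := by
      rw [ha, hb']
      ring
    rw [h5, ha0, hb0] at e
    linarith
  have hw2 : w.im = 0 := by
    have h5 := Real.cos_sq_add_sin_sq θ₀
    have e : a * Real.sin θ₀ + b * Real.cos θ₀ = w.im * (Real.cos θ₀ ^ 2 + Real.sin θ₀ ^ 2) := by
      rw [ha, hb']
      ring
    rw [h5, ha0, hb0] at e
    linarith
  have hw : w = 0 := Complex.ext hw1 hw2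
  have := hall θ₀ m0
  rw [hw, zero_add, norm_u] at this
  exact hr this.symm

/-- Generic points on an arc avoid all the boundary circles. -/
lemma dense_generic (z : ℂ) : Dense {θ : ℝ | ∀ α : Idx, ‖z + u θ - ctr α‖ ≠ rad α.1} := by
  have e : {θ : ℝ | ∀ α : Idx, ‖z + u θ - ctr α‖ ≠ rad α.1} =
      ⋂ α : Idx, {θ : ℝ | ‖(z - ctr α) + u θ‖ ≠ rad α.1} := by
    ext θ
    simp only [mem_ofPred_eq, mem_iInter]
    constructor
    · intro h α
      have := h α
      rwa [show z + u θ - ctr α = (z - ctr α) + u θ by ring] at this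
    · intro h α
      have := h α
      rwa [show (z - ctr α) + u θ = z + u θ - ctr α by ring] at this
  rw [e]
  refine dense_iInter_of_isOpen (fun α => ?_) (fun α => ?_)
  · have hc : Continuous fun θ : ℝ => ‖(z - ctr α) + u θ‖ := by
      have := continuous_u
      fun_prop
    exact isOpen_ne_fun hc continuous_const
  · exact dense_ne_norm _ (rad_lt_one α.1).ne (rad_pos α.1).le

/-- At a generic point, membership in two new closures gives membership in the old pieces. -/
lemma generic_mem (hA : RegCover A) {p : ℂ} (hgen : ∀ α : Idx, ‖p - ctr α‖ ≠ rad α.1) {i j : Fin 5}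
    (hij : i ≠ j) (hi : p ∈ closure (newU A i)) (hj : p ∈ closure (newU A j)) :
    p ∈ A i ∧ p ∈ A j := by
  classical
  have hnot : ∀ α, Adm A α → p ∉ ballOf α := by
    intro α hα hpα
    have hP : ∃ n, ∃ α : Idx, enc α = n ∧ Adm A α ∧ p ∈ ballOf α := ⟨enc α, α, rfl, hα, hpα⟩
    obtain ⟨γ, hγ1, hγ2, hγ3⟩ := Nat.find_spec hP
    have hγD : p ∈ Dset A γ := by
      refine ⟨hγ2, hγ3, ?_⟩
      intro β hβ hβA hpc
      have hr := rad_pos β.1
      have hcl : closure (ballOf β) = closedBall (ctr β) (rad β.1) := closure_ball _ hr.ne'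
      rw [hcl, mem_closedBall, dist_eq_norm] at hpc
      have hlt : ‖p - ctr β‖ < rad β.1 := lt_of_le_of_ne hpc (hgen β)
      have hmem : p ∈ ballOf β := by
        show p ∈ ball (ctr β) (rad β.1)
        rwa [mem_ball, dist_eq_norm]
      have : enc β < Nat.find hP := by rw [← hγ1]; exact hβ
      exact Nat.find_min hP this ⟨β, rfl, hβA, hmem⟩
    have hcol : ∀ l, p ∈ closure (newU A l) → colOf γ = l := by
      intro l hl
      obtain ⟨q, hqD, hqU⟩ := _root_.mem_closure_iff.1 hl _ (isOpen_Dset γ) hγD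
      obtain ⟨δ, hδ, hδD⟩ := mem_newU.1 hqU
      rw [Dset_eq hqD hδD]
      exact hδ
    exact hij ((hcol i hi).symm.trans (hcol j hj))
  have hnotc : ∀ α, Adm A α → p ∉ closure (ballOf α) := by
    intro α hα hpc
    have hr := rad_pos α.1
    have hcl : closure (ballOf α) = closedBall (ctr α) (rad α.1) := closure_ball _ hr.ne'
    rw [hcl, mem_closedBall, dist_eq_norm] at hpc
    have hlt : ‖p - ctr α‖ < rad α.1 := lt_of_le_of_ne hpc (hgen α)
    apply hnot α hα
    show p ∈ ball (ctr α) (rad α.1)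
    rwa [mem_ball, dist_eq_norm]
  constructor
  · rcases mem_of_closure_newU hA hi with h | ⟨α, _, hαA, hαc⟩
    · exact h
    · exact (hnotc α hαA hαc).elim
  · rcases mem_of_closure_newU hA hj with h | ⟨α, _, hαA, hαc⟩
    · exact h
    · exact (hnotc α hαA hαc).elim

/-- The main recolouring theorem: some double contact centre has all its colours again on its unit
circle. -/
theorem exists_nonremovable (hA : RegCover A) :
    ∃ i j, i ≠ j ∧ ∃ z, z ∈ A i ∧ z ∈ A j ∧
      (∃ θ₁ θ₂ : ℝ, θ₁ < θ₂ ∧ ∀ θ ∈ Icc θ₁ θ₂, z + u θ ∈ A i ∧ z + u θ ∈ A j) ∧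
      ∀ k, z ∈ A k → ∃ θ : ℝ, z + u θ ∈ A k := by
  classical
  by_contra hcon
  push Not at hcon
  obtain ⟨i, j, hij, z, hzi, hzj, θ₁, θ₂, hθ, harc⟩ :=
    open_double_arc (newU A) isOpen_newU (newU_dense hA) (fun k x hx y hy => newU_no_unit hx hy)
  have hgen := dense_generic z
  have hGc : IsClosed {θ : ℝ | z + u θ ∈ A i ∧ z + u θ ∈ A j} := by
    have hc : Continuous fun θ : ℝ => z + u θ := continuous_const.add continuous_u
    exact ((hA.closed i).preimage hc).inter ((hA.closed j).preimage hc)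
  have hIoo : Ioo θ₁ θ₂ ⊆ {θ : ℝ | z + u θ ∈ A i ∧ z + u θ ∈ A j} := by
    intro θ hθ'
    have h1 := hgen.open_subset_closure_inter isOpen_Ioo hθ'
    refine (closure_minimal ?_ hGc) h1
    rintro ψ ⟨hψ1, hψ2⟩
    have hψ3 := harc ψ ⟨hψ1.1.le, hψ1.2.le⟩
    exact generic_mem hA hψ2 hij hψ3.1 hψ3.2
  let a₁ := θ₁ + (θ₂ - θ₁) / 3
  let a₂ := θ₂ - (θ₂ - θ₁) / 3
  have ha : a₁ < a₂ := by
    simp only [a₁, a₂]
    linarith
  have harc2 : ∀ θ ∈ Icc a₁ a₂, z + u θ ∈ A i ∧ z + u θ ∈ A j := by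
    intro θ hθ'
    apply hIoo
    constructor
    · have : θ₁ < a₁ := by
        simp only [a₁]
        linarith
      linarith [hθ'.1]
    · have : a₂ < θ₂ := by
        simp only [a₂]
        linarith
      linarith [hθ'.2]
  have hunit : ∀ θ, ‖z + u θ - z‖ = 1 := by
    intro θ
    rw [show z + u θ - z = u θ by ring, norm_u]
  have hp1 := harc2 a₁ ⟨le_rfl, ha.le⟩
  have hzi' : z ∈ A i := by
    rcases mem_of_closure_newU hA hzi with h | ⟨α, hα, hαA, hαc⟩
    · exact h
    · exact (not_closure_of_unit hαA (hα ▸ hp1.1) (hunit a₁) hαc).elim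
  have hzj' : z ∈ A j := by
    rcases mem_of_closure_newU hA hzj with h | ⟨α, hα, hαA, hαc⟩
    · exact h
    · exact (not_closure_of_unit hαA (hα ▸ hp1.2) (hunit a₁) hαc).elim
  obtain ⟨k, hzk, hkθ⟩ := hcon i j hij z hzi' hzj' ⟨a₁, a₂, ha, harc2⟩
  have hki : k ≠ i := by
    rintro rfl
    exact hkθ a₁ hp1.1
  obtain ⟨m, hm, hmb⟩ := pos_margin hA.closed (k := k) (z := z) (by
    intro y hy hyz
    apply hkθ (Complex.arg (y - z))
    have hyu : z + u (Complex.arg (y - z)) = y := by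
      have h1 : (‖y - z‖ : ℂ) * Complex.exp (Complex.arg (y - z) * Complex.I) = y - z :=
        Complex.norm_mul_exp_arg_mul_I _
      rw [hyz] at h1
      simp only [Complex.ofReal_one, one_mul] at h1
      show z + Complex.exp (Complex.arg (y - z) * Complex.I) = y
      rw [h1]
      ring
    rw [hyu]
    exact hy)
  obtain ⟨α, hα, hαA, hαb⟩ := exists_adm k hzk hm hmb
  obtain ⟨β, _, hβA, hβc, hβz⟩ := near_ball hαA hαb (i := i) (by rw [hα]; exact hki) hzi
  exact not_closure_of_unit hβA (hβc ▸ hp1.1) (hunit a₁) hβz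

end Vale.Agent.Lib.P032
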