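import Mathlib
import Vale.Agent.Lib.P032.Recolor
import Vale.Agent.Lib.P032.BaireCase

/-!
A double contact centre with at most three colours has a colour missing on its unit circle.
Consequently, five pieces force a point in four pieces.
-/

open Metric Set Topology

namespace Vale.Agent.Lib.P032

variable {A : Fin 5 → Set ℂ}

/-- The squared distance from a point on a line through `z` to a point on the unit circle of `z`. -/
lemma line_sq (z : ℂ) (ε ψ θ : ℝ) :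
    ‖z + (ε : ℂ) * u (ψ + Real.pi / 2) - (z + u θ)‖ ^ 2 - 1 =
      ε ^ 2 + 2 * ε * Real.sin (ψ - θ) := by
  have e : z + (ε : ℂ) * u (ψ + Real.pi / 2) - (z + u θ) = (ε : ℂ) * u (ψ + Real.pi / 2) - u θ := by
    ring
  rw [e, sq_norm_eq, Complex.sub_re, Complex.sub_im, Complex.mul_re, Complex.mul_im,
    Complex.ofReal_re, Complex.ofReal_im, u_re, u_im, u_re, u_im, Real.cos_add_pi_div_two,
    Real.sin_add_pi_div_two, Real.sin_sub]
  have h1 := Real.cos_sq_add_sin_sq ψ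
  have h2 := Real.cos_sq_add_sin_sq θ
  have e2 : ε ^ 2 + 2 * ε * (Real.sin ψ * Real.cos θ - Real.cos ψ * Real.sin θ) =
      ε ^ 2 * (Real.cos ψ ^ 2 + Real.sin ψ ^ 2) + (Real.cos θ ^ 2 + Real.sin θ ^ 2) - 1 +
        2 * ε * (Real.sin ψ * Real.cos θ - Real.cos ψ * Real.sin θ) := by
    rw [h1, h2]
    ring
  rw [e2]
  ring

/-- The key lemma: a double contact centre at which every colour recurs on the unit circle has at
least two more colours. -/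
lemma four_colours (hA : RegCover A) {i j : Fin 5} (hij : i ≠ j) {z : ℂ} (hzi : z ∈ A i)
    (hzj : z ∈ A j) {θ₁ θ₂ : ℝ} (hθ : θ₁ < θ₂)
    (harc : ∀ θ ∈ Icc θ₁ θ₂, z + u θ ∈ A i ∧ z + u θ ∈ A j)
    (hrec : ∀ k, z ∈ A k → ∃ θ : ℝ, z + u θ ∈ A k) :
    ∃ k l, k ≠ i ∧ k ≠ j ∧ l ≠ i ∧ l ≠ j ∧ k ≠ l ∧ z ∈ A k ∧ z ∈ A l := by
  by_contra hno
  push Not at hno
  -- shorten the arc
  let θ₃ := min θ₂ (θ₁ + 1)
  have h31 : θ₁ < θ₃ := lt_min hθ (by linarith)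
  have h32 : θ₃ ≤ θ₂ := min_le_left _ _
  have h33 : θ₃ ≤ θ₁ + 1 := min_le_right _ _
  have harc' : ∀ θ ∈ Icc θ₁ θ₃, z + u θ ∈ A i ∧ z + u θ ∈ A j :=
    fun θ hθ' => harc θ ⟨hθ'.1, hθ'.2.trans h32⟩
  let Q : Set ℂ := {t | (‖t - (z + u θ₁)‖ ^ 2 - 1) * (‖t - (z + u θ₃)‖ ^ 2 - 1) < 0}
  have hQo : IsOpen Q := by
    apply isOpen_lt _ continuous_const
    fun_prop
  have hQi : ∀ t ∈ Q, t ∉ A i := fun t ht hti =>
    cross_core hA hti h31.le (fun ψ hψ => (harc' ψ hψ).1) ht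
  have hQj : ∀ t ∈ Q, t ∉ A j := fun t ht htj =>
    cross_core hA htj h31.le (fun ψ hψ => (harc' ψ hψ).2) ht
  let O : Set ℂ := {q | ∀ l, z ∉ A l → q ∉ A l}
  have hOo : IsOpen O := isOpen_avoid hA z
  have hzO : z ∈ O := fun l hl => hl
  obtain ⟨ρ, hρ, hρb⟩ := Metric.isOpen_iff.1 hOo z hzO
  -- points on lines through z
  have hpi := Real.pi_gt_three
  have hline : ∀ ψ ∈ Ioo θ₁ θ₃, ∃ ε₀ > 0, ∀ ε : ℝ, ε ≠ 0 → |ε| < ε₀ →
      z + (ε : ℂ) * u (ψ + Real.pi / 2) ∈ Q ∩ O := by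
    intro ψ hψ
    have hs1 : 0 < Real.sin (ψ - θ₁) :=
      Real.sin_pos_of_pos_of_lt_pi (by linarith [hψ.1]) (by linarith [hψ.2])
    have hs2 : 0 < Real.sin (θ₃ - ψ) :=
      Real.sin_pos_of_pos_of_lt_pi (by linarith [hψ.2]) (by linarith [hψ.1])
    refine ⟨min (min (2 * Real.sin (ψ - θ₁)) (2 * Real.sin (θ₃ - ψ))) ρ, by positivity, ?_⟩
    intro ε hε hεl
    have l1 : |ε| < 2 * Real.sin (ψ - θ₁) :=
      lt_of_lt_of_le hεl ((min_le_left _ _).trans (min_le_left _ _))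
    have l2 : |ε| < 2 * Real.sin (θ₃ - ψ) :=
      lt_of_lt_of_le hεl ((min_le_left _ _).trans (min_le_right _ _))
    have l3 : |ε| < ρ := lt_of_lt_of_le hεl (min_le_right _ _)
    constructor
    · show (‖z + (ε : ℂ) * u (ψ + Real.pi / 2) - (z + u θ₁)‖ ^ 2 - 1) *
        (‖z + (ε : ℂ) * u (ψ + Real.pi / 2) - (z + u θ₃)‖ ^ 2 - 1) < 0
      rw [line_sq, line_sq]
      have e3 : Real.sin (ψ - θ₃) = - Real.sin (θ₃ - ψ) := by
        rw [← Real.sin_neg, neg_sub]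
      rw [e3]
      have a1 := abs_lt.1 l1
      have a2 := abs_lt.1 l2
      have e4 : (ε ^ 2 + 2 * ε * Real.sin (ψ - θ₁)) * (ε ^ 2 + 2 * ε * -Real.sin (θ₃ - ψ)) =
          ε ^ 2 * ((ε + 2 * Real.sin (ψ - θ₁)) * (ε - 2 * Real.sin (θ₃ - ψ))) := by ring
      rw [e4]
      apply mul_neg_of_pos_of_neg (by positivity)
      apply mul_neg_of_pos_of_neg
      · linarith [a1.1]
      · linarith [a2.2]
    · apply hρb
      rw [mem_ball, dist_eq_norm]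
      have e : z + (ε : ℂ) * u (ψ + Real.pi / 2) - z = (ε : ℂ) * u (ψ + Real.pi / 2) := by ring
      rw [e, norm_mul, norm_u, mul_one, Complex.norm_real, Real.norm_eq_abs]
      exact l3
  -- the third colour
  let ψ₀ := θ₁ + (θ₃ - θ₁) / 2
  have hψ₀ : ψ₀ ∈ Ioo θ₁ θ₃ := by
    simp only [ψ₀, mem_Ioo]
    constructor <;> linarith
  obtain ⟨ε₀, hε₀, hε₀b⟩ := hline ψ₀ hψ₀
  have hm0 := hε₀b (ε₀ / 2) (by positivity) (by rw [abs_of_pos (by positivity)]; linarith)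
  obtain ⟨k, hk⟩ := hA.cover (z + ((ε₀ / 2 : ℝ) : ℂ) * u (ψ₀ + Real.pi / 2))
  have hki : k ≠ i := fun h => hQi _ hm0.1 (h ▸ hk)
  have hkj : k ≠ j := fun h => hQj _ hm0.1 (h ▸ hk)
  have hzk : z ∈ A k := by
    by_contra h
    exact hm0.2 k h hk
  have hsub : Q ∩ O ⊆ A k := by
    intro t ht
    obtain ⟨l, hl⟩ := hA.cover t
    have hli : l ≠ i := fun h => hQi _ ht.1 (h ▸ hl)
    have hlj : l ≠ j := fun h => hQj _ ht.1 (h ▸ hl)
    have hzl : z ∈ A l := by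
      by_contra h
      exact ht.2 l h hl
    have := hno l k hli hlj hki hkj
    by_cases hlk : l = k
    · exact hlk ▸ hl
    · exact (this hlk hzl hzk).elim
  have hint : Q ∩ O ⊆ interior (A k) := interior_maximal hsub (hQo.inter hOo)
  -- the recurrence of this colour
  obtain ⟨φ, hφ⟩ := hrec k hzk
  -- a line through z transversal to the direction of the recurrence
  have hψex : ∃ ψ ∈ Ioo θ₁ θ₃, Real.sin (ψ - φ) ≠ 0 := by
    let ψ₁ := θ₁ + (θ₃ - θ₁) / 3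
    let ψ₂ := θ₁ + 2 * (θ₃ - θ₁) / 3
    have m1 : ψ₁ ∈ Ioo θ₁ θ₃ := by
      simp only [ψ₁, mem_Ioo]
      constructor <;> linarith
    have m2 : ψ₂ ∈ Ioo θ₁ θ₃ := by
      simp only [ψ₂, mem_Ioo]
      constructor <;> linarith
    by_cases h : Real.sin (ψ₁ - φ) = 0
    · refine ⟨ψ₂, m2, ?_⟩
      have e : ψ₂ - φ = (ψ₁ - φ) + (θ₃ - θ₁) / 3 := by
        simp only [ψ₁, ψ₂]
        ring
      rw [e, Real.sin_add, h, zero_mul, zero_add]
      have hc : Real.cos (ψ₁ - φ) ≠ 0 := by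
        intro hc
        have := Real.cos_sq_add_sin_sq (ψ₁ - φ)
        rw [h, hc] at this
        norm_num at this
      have hs : 0 < Real.sin ((θ₃ - θ₁) / 3) :=
        Real.sin_pos_of_pos_of_lt_pi (by linarith) (by linarith)
      exact mul_ne_zero hc hs.ne'
    · exact ⟨ψ₁, m1, h⟩
  obtain ⟨ψ, hψ, hσ⟩ := hψex
  obtain ⟨ε₁, hε₁, hε₁b⟩ := hline ψ hψ
  set σ := Real.sin (ψ - φ) with hσdef
  have hσabs : 0 < |σ| := abs_pos.2 hσ
  let η := min (ε₁ / 2) |σ|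
  have hη : 0 < η := lt_min (by positivity) hσabs
  have hη1 : η ≤ ε₁ / 2 := min_le_left _ _
  have hη2 : η ≤ |σ| := min_le_right _ _
  obtain ⟨a, ha1, ha2⟩ : ∃ a : ℝ, |a| = η ∧ a * σ = - (η * |σ|) := by
    rcases lt_or_gt_of_ne hσ with hneg | hpos
    · refine ⟨η, abs_of_pos hη, ?_⟩
      rw [abs_of_neg hneg]
      ring
    · refine ⟨-η, by rw [abs_neg, abs_of_pos hη], ?_⟩
      rw [abs_of_pos hpos]
      ring
  let τ : ℝ → ℂ := fun ε => z + (ε : ℂ) * u (ψ + Real.pi / 2)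
  have hτc : Continuous τ := by
    have := continuous_u
    simp only [τ]
    fun_prop
  let W : Set ℂ := {y | ‖τ a - y‖ ^ 2 - 1 < 0 ∧ 0 < ‖τ (-a) - y‖ ^ 2 - 1}
  have hWo : IsOpen W := by
    have h1 : IsOpen {y : ℂ | ‖τ a - y‖ ^ 2 - 1 < 0} := isOpen_lt (by fun_prop) continuous_const
    have h2 : IsOpen {y : ℂ | 0 < ‖τ (-a) - y‖ ^ 2 - 1} := isOpen_lt continuous_const (by fun_prop)
    exact h1.inter h2
  have hyW : z + u φ ∈ W := by
    constructor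
    · have := line_sq z a ψ φ
      simp only [τ]
      rw [this, ← hσdef]
      have e : a ^ 2 = η ^ 2 := by rw [← sq_abs, ha1]
      nlinarith
    · have := line_sq z (-a) ψ φ
      simp only [τ]
      have e0 : ((-a : ℝ) : ℂ) = -(a : ℂ) := by push_cast; ring
      rw [this, ← hσdef]
      have e : (-a) ^ 2 = η ^ 2 := by rw [← sq_abs, abs_neg, ha1]
      nlinarith
  obtain ⟨y₁, hy₁W, hy₁I⟩ := _root_.mem_closure_iff.1 (hA.reg k hφ) W hWo hyW
  -- a point whose distance from z is not one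
  have hy₂ : ∃ y₂ ∈ W ∩ interior (A k), ‖z - y₂‖ ≠ 1 := by
    by_cases h : ‖z - y₁‖ = 1
    · obtain ⟨r, hr, hrb⟩ := Metric.isOpen_iff.1 (hWo.inter isOpen_interior) y₁ ⟨hy₁W, hy₁I⟩
      let y₂ : ℂ := y₁ + ((r / 2 : ℝ) : ℂ) * (y₁ - z)
      refine ⟨y₂, hrb ?_, ?_⟩
      · rw [mem_ball, dist_eq_norm]
        have e : y₂ - y₁ = ((r / 2 : ℝ) : ℂ) * (y₁ - z) := by
          simp only [y₂]
          ring
        rw [e, norm_mul, Complex.norm_real, norm_sub_rev y₁ z, h, mul_one, Real.norm_eq_abs,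
          abs_of_pos (by positivity)]
        linarith
      · have e : z - y₂ = ((1 + r / 2 : ℝ) : ℂ) * (z - y₁) := by
          simp only [y₂]
          push_cast
          ring
        rw [e, norm_mul, h, mul_one, Complex.norm_real, Real.norm_eq_abs,
          abs_of_pos (by positivity)]
        intro he
        linarith
    · exact ⟨y₁, ⟨hy₁W, hy₁I⟩, h⟩
  obtain ⟨y₂, ⟨hy₂W, hy₂I⟩, hy₂n⟩ := hy₂
  let f : ℝ → ℝ := fun ε => ‖τ ε - y₂‖ ^ 2 - 1
  have hf : Continuous f := by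
    simp only [f]
    fun_prop
  have h0 : (0 : ℝ) ∈ uIcc (f a) (f (-a)) := by
    rw [mem_uIcc]
    left
    exact ⟨hy₂W.1.le, hy₂W.2.le⟩
  obtain ⟨ε, hε, hε0⟩ := intermediate_value_uIcc hf.continuousOn h0
  have hεabs : |ε| ≤ η := by
    rw [mem_uIcc] at hε
    have hh := abs_le.1 (le_of_eq ha1)
    rw [abs_le]
    rcases hε with h | h <;> constructor <;> linarith [h.1, h.2, hh.1, hh.2]
  have hεne : ε ≠ 0 := by
    rintro rfl
    apply hy₂n
    have h1 : f 0 = ‖z - y₂‖ ^ 2 - 1 := by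
      simp [f, τ]
    rw [hε0] at h1
    have h2 := norm_nonneg (z - y₂)
    nlinarith
  have hmem := hε₁b ε hεne (by linarith)
  apply hA.noUnit k _ (hint hmem) y₂ (interior_subset hy₂I)
  have h1 := norm_nonneg (τ ε - y₂)
  have h2 : ‖τ ε - y₂‖ ^ 2 = 1 := by
    have : f ε = ‖τ ε - y₂‖ ^ 2 - 1 := rfl
    linarith
  show ‖τ ε - y₂‖ = 1
  nlinarith

/-- The structure theorem in `ℂ` for regular covers by five pieces. -/
theorem exists_four_centre (hA : RegCover A) :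
    ∃ i j, i ≠ j ∧ ∃ z, z ∈ A i ∧ z ∈ A j ∧
      (∃ θ₁ θ₂ : ℝ, θ₁ < θ₂ ∧ ∀ θ ∈ Icc θ₁ θ₂, z + u θ ∈ A i ∧ z + u θ ∈ A j) ∧
      (∃ k l, k ≠ i ∧ k ≠ j ∧ l ≠ i ∧ l ≠ j ∧ k ≠ l ∧ z ∈ A k ∧ z ∈ A l) ∧
      ∀ k, z ∈ A k → ∃ θ : ℝ, z + u θ ∈ A k := by
  obtain ⟨i, j, hij, z, hzi, hzj, ⟨θ₁, θ₂, hθ, harc⟩, hrec⟩ := exists_nonremovable hA
  exact ⟨i, j, hij, z, hzi, hzj, ⟨θ₁, θ₂, hθ, harc⟩, four_colours hA hij hzi hzj hθ harc hrec, hrec⟩

/-- The structure theorem for five open sets in the Euclidean plane. -/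
theorem plane_open_four (U : Fin 5 → Set Plane) (hU : ∀ i, IsOpen (U i))
    (hd : Dense (⋃ i, U i)) (h1 : ∀ i, ∀ x ∈ U i, ∀ y ∈ U i, dist x y ≠ 1) :
    ∃ i j, i ≠ j ∧ ∃ z, z ∈ closure (U i) ∧ z ∈ closure (U j) ∧
      (∃ θ₁ θ₂ : ℝ, θ₁ < θ₂ ∧ ∀ θ ∈ Icc θ₁ θ₂, z + !₂[Real.cos θ, Real.sin θ] ∈ closure (U i) ∧
        z + !₂[Real.cos θ, Real.sin θ] ∈ closure (U j)) ∧
      (∃ k l, k ≠ i ∧ k ≠ j ∧ l ≠ i ∧ l ≠ j ∧ k ≠ l ∧ z ∈ closure (U k) ∧ z ∈ closure (U l)) ∧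
      ∀ k, z ∈ closure (U k) → ∃ θ : ℝ, z + !₂[Real.cos θ, Real.sin θ] ∈ closure (U k) := by
  let U' : Fin 5 → Set ℂ := fun i => toPlane ⁻¹' (U i)
  have hU' : ∀ i, IsOpen (U' i) := fun i => (hU i).preimage toPlane.continuous
  have hd' : Dense (⋃ i, U' i) := by
    have : (⋃ i, U' i) = toPlane.toHomeomorph ⁻¹' (⋃ i, U i) := by
      ext z
      simp [U']
    rw [this]
    exact hd.preimage toPlane.toHomeomorph.isOpenMap
  have h1' : ∀ i, ∀ x ∈ U' i, ∀ y ∈ U' i, ‖x - y‖ ≠ 1 := by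
    intro i x hx y hy hxy
    apply h1 i _ hx _ hy
    rw [toPlane.dist_map, dist_eq_norm]
    exact hxy
  obtain ⟨i, j, hij, z, hzi, hzj, ⟨θ₁, θ₂, hθ, harc⟩, ⟨k, l, h2, h3, h4, h5, h6, hzk, hzl⟩, hrec⟩ :=
    exists_four_centre (regCover_of_open U' hU' hd' h1')
  refine ⟨i, j, hij, toPlane z, toPlane_mem_closure.2 hzi, toPlane_mem_closure.2 hzj,
    ⟨θ₁, θ₂, hθ, ?_⟩, ⟨k, l, h2, h3, h4, h5, h6, toPlane_mem_closure.2 hzk,
      toPlane_mem_closure.2 hzl⟩, ?_⟩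
  · intro θ hθ'
    rw [← toPlane_add_u]
    exact ⟨toPlane_mem_closure.2 (harc θ hθ').1, toPlane_mem_closure.2 (harc θ hθ').2⟩
  · intro m hm
    obtain ⟨θ, hθ'⟩ := hrec m (toPlane_mem_closure.1 hm)
    refine ⟨θ, ?_⟩
    rw [← toPlane_add_u]
    exact toPlane_mem_closure.2 hθ'

/-- For classes with the property of Baire, essential accumulation is the same as being in the
closure of the essential open part. -/
lemma mem_closure_essOpen_of_nonmeager {S : Set Plane} (hS : BaireMeasurableSet S) {p : Plane}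
    (h : ∀ r > 0, ¬ IsMeagre (ball p r ∩ S)) : p ∈ closure (essOpen S) := by
  obtain ⟨W, hWo, hW⟩ := hS.residualEq_isOpen
  have hev := Filter.eventuallyEq_set.1 hW
  have hm1 : IsMeagre (W \ S) := by
    unfold IsMeagre
    refine Filter.mem_of_superset hev ?_
    intro q hq hq'
    exact hq'.2 (hq.2 hq'.1)
  have hm2 : IsMeagre (S \ W) := by
    unfold IsMeagre
    refine Filter.mem_of_superset hev ?_
    intro q hq hq'
    exact hq'.2 (hq.1 hq'.1)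
  rw [Metric.mem_closure_iff]
  intro r hr
  have hn := h r hr
  have hne : (ball p r ∩ W).Nonempty := by
    by_contra hemp
    apply hn
    refine hm2.mono ?_
    rintro q ⟨hq1, hq2⟩
    refine ⟨hq2, fun hqW => hemp ⟨q, hq1, hqW⟩⟩
  obtain ⟨q, hq1, hq2⟩ := hne
  refine ⟨q, mem_essOpen_iff.2 ⟨ball p r ∩ W, isOpen_ball.inter hWo, ?_, hq1, hq2⟩, ?_⟩
  · refine hm1.mono ?_
    rintro w ⟨hw1, hw2⟩
    exact ⟨hw1.2, hw2⟩
  · rw [dist_comm]
    exact hq1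

/-- The structure theorem for colourings with the property of Baire. -/
theorem baire_four (c : Plane → Fin 5) (hc : ∀ x y, dist x y = 1 → c x ≠ c y)
    (hB : ∀ i, BaireMeasurableSet (c ⁻¹' {i})) :
    let E : Fin 5 → Set Plane := fun k => {p | ∀ r > 0, ¬ IsMeagre (ball p r ∩ c ⁻¹' {k})}
    ∃ i j, i ≠ j ∧ ∃ z, z ∈ E i ∧ z ∈ E j ∧
      (∃ θ₁ θ₂ : ℝ, θ₁ < θ₂ ∧ ∀ θ ∈ Icc θ₁ θ₂, z + !₂[Real.cos θ, Real.sin θ] ∈ E i ∧
        z + !₂[Real.cos θ, Real.sin θ] ∈ E j) ∧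
      (∃ k l, k ≠ i ∧ k ≠ j ∧ l ≠ i ∧ l ≠ j ∧ k ≠ l ∧ z ∈ E k ∧ z ∈ E l) ∧
      ∀ k, z ∈ E k → ∃ θ : ℝ, z + !₂[Real.cos θ, Real.sin θ] ∈ E k := by
  intro E
  have hE : ∀ {k p}, p ∈ closure (essOpen (c ⁻¹' {k})) → p ∈ E k :=
    fun hp r hr => nonmeager_of_mem_closure hp hr
  have hE' : ∀ {k p}, p ∈ E k → p ∈ closure (essOpen (c ⁻¹' {k})) :=
    fun hp => mem_closure_essOpen_of_nonmeager (hB _) hp
  obtain ⟨i, j, hij, z, hzi, hzj, ⟨θ₁, θ₂, hθ, harc⟩, ⟨k, l, h2, h3, h4, h5, h6, hzk, hzl⟩, hrec⟩ :=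
    plane_open_four (fun i => essOpen (c ⁻¹' {i})) (fun i => essOpen_isOpen _)
      (essOpen_dense c hB) (fun i => essOpen_no_unit (by
        intro x hx y hy hxy
        have hx' : c x = i := hx
        have hy' : c y = i := hy
        exact hc x y hxy (hx'.trans hy'.symm)))
  refine ⟨i, j, hij, z, hE hzi, hE hzj, ⟨θ₁, θ₂, hθ, ?_⟩,
    ⟨k, l, h2, h3, h4, h5, h6, hE hzk, hE hzl⟩, ?_⟩
  · intro θ hθ'
    exact ⟨hE (harc θ hθ').1, hE (harc θ hθ').2⟩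
  · intro m hm
    obtain ⟨θ, hθ'⟩ := hrec m (hE' hm)
    exact ⟨θ, hE hθ'⟩

/-- A closed class contains its essential accumulation points. -/
lemma mem_of_closed_of_ess {S : Set Plane} (hS : IsClosed S) {p : Plane}
    (h : ∀ r > 0, ¬ IsMeagre (ball p r ∩ S)) : p ∈ S := by
  by_contra hp
  obtain ⟨r, hr, hb⟩ := Metric.isOpen_iff.1 hS.isOpen_compl p hp
  apply h r hr
  have : ball p r ∩ S = ∅ := by
    ext q
    simp only [mem_inter_iff, mem_empty_iff_false, iff_false, not_and]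
    exact fun hq hqS => hb hq hqS
  rw [this]
  exact IsMeagre.empty

/-- In a proper colouring of the plane with five colours with classes with the property of Baire,
at most one class is closed. -/
theorem baire_one_closed (c : Plane → Fin 5) (hc : ∀ x y, dist x y = 1 → c x ≠ c y)
    (hB : ∀ i, BaireMeasurableSet (c ⁻¹' {i})) :
    {i : Fin 5 | IsClosed (c ⁻¹' {i})}.ncard ≤ 1 := by
  classical
  obtain ⟨i, j, hij, z, hzi, hzj, -, ⟨k, l, h2, h3, h4, h5, h6, hzk, hzl⟩, hrec⟩ :=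
    baire_four c hc hB
  have hnc : ∀ m, (∀ r > 0, ¬ IsMeagre (ball z r ∩ c ⁻¹' {m})) → ¬ IsClosed (c ⁻¹' {m}) := by
    intro m hm hcl
    have hz : z ∈ c ⁻¹' {m} := mem_of_closed_of_ess hcl hm
    obtain ⟨θ, hθ⟩ := hrec m hm
    have hy := mem_of_closed_of_ess hcl hθ
    refine hc z (z + !₂[Real.cos θ, Real.sin θ]) ?_ ((show c z = m from hz).trans (show _ = m from hy).symm)
    rw [dist_eq_norm]
    have e : z - (z + !₂[Real.cos θ, Real.sin θ]) = - !₂[Real.cos θ, Real.sin θ] := by abel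
    rw [e, norm_neg, EuclideanSpace.norm_eq]
    simp [Fin.sum_univ_two]
  have hsub : {m : Fin 5 | IsClosed (c ⁻¹' {m})} ⊆
      (({i, j, k, l} : Finset (Fin 5)) : Set (Fin 5))ᶜ := by
    intro m hm hm'
    simp only [Finset.coe_insert, Finset.coe_singleton, mem_insert_iff, mem_singleton_iff] at hm'
    have hmc : IsClosed (c ⁻¹' {m}) := hm
    rcases hm' with rfl | rfl | rfl | rfl
    · exact hnc _ hzi hmc
    · exact hnc _ hzj hmc
    · exact hnc _ hzk hmc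
    · exact hnc _ hzl hmc
  have hcard : (({i, j, k, l} : Finset (Fin 5)) : Set (Fin 5))ᶜ.ncard = 1 := by
    rw [← Finset.coe_compl, Set.ncard_coe_finset, Finset.card_compl, Fintype.card_fin]
    have : ({i, j, k, l} : Finset (Fin 5)).card = 4 := by
      rw [Finset.card_eq_succ]
      refine ⟨i, {j, k, l}, ?_, rfl, ?_⟩
      · simp [hij, h2.symm, h4.symm]
      · rw [Finset.card_eq_three]
        exact ⟨j, k, l, h3.symm, h5.symm, h6, rfl⟩
    rw [this]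
  have := Set.ncard_le_ncard hsub (Set.toFinite _)
  omega

end Vale.Agent.Lib.P032
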